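import Mathlib

/-!
Lattice covering lemma for sheared unit squares (used for S0326, row 211).  `helper5`.
-/

set_option autoImplicit false

namespace Crest.Agent.Helper5

/-- **Lattice lemma.** If `0 ≤ β γ < 1`, the unit squares centred at the points
`(i + β j, γ i + j)`, `i j : ℤ`, cover the plane. -/
theorem lattice_cover (β γ : ℝ) (h0 : 0 ≤ β * γ) (h1 : β * γ < 1) (X Y : ℝ) :
    ∃ i j : ℤ, |X - (i + β * j)| ≤ 1 / 2 ∧ |Y - (γ * i + j)| ≤ 1 / 2 := by
  obtain ⟨J, hJ⟩ : ∃ J : ℤ → ℤ, J = fun i : ℤ => ⌊Y - γ * i + 1 / 2⌋ := ⟨_, rfl⟩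
  have hJle : ∀ i : ℤ, (J i : ℝ) ≤ Y - γ * i + 1 / 2 := fun i => by
    rw [hJ]; exact Int.floor_le _
  have hJlt : ∀ i : ℤ, Y - γ * i + 1 / 2 < (J i : ℝ) + 1 := fun i => by
    rw [hJ]; exact Int.lt_floor_add_one _
  have hJ1 : ∀ i : ℤ, |Y - (γ * i + J i)| ≤ 1 / 2 := by
    intro i
    have h2 := hJle i
    have h3 := hJlt i
    rw [abs_le]
    constructor <;> linarith
  obtain ⟨c, hc⟩ : ∃ c : ℤ → ℝ, c = fun i : ℤ => (i : ℝ) + β * J i := ⟨_, rfl⟩
  have hstep : ∀ i : ℤ, c (i + 1) - c i ≤ 1 := by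
    intro i
    have hmain : β * ((J (i + 1) : ℝ) - J i) ≤ 0 := by
      rcases lt_trichotomy γ 0 with hγ | hγ | hγ
      · have hβ : β ≤ 0 := by
          by_contra hcon
          have : 0 < β := not_le.1 hcon
          nlinarith
        have hle : J i ≤ J (i + 1) := by
          rw [hJ]
          apply Int.floor_le_floor
          push_cast
          nlinarith
        have hle' : (J i : ℝ) ≤ J (i + 1) := by exact_mod_cast hle
        nlinarith
      · have : J (i + 1) = J i := by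
          rw [hJ, hγ]
          simp
        rw [this]
        simp
      · have hβ : 0 ≤ β := by
          by_contra hcon
          have : β < 0 := not_le.1 hcon
          nlinarith
        have hle : J (i + 1) ≤ J i := by
          rw [hJ]
          apply Int.floor_le_floor
          push_cast
          nlinarith
        have hle' : (J (i + 1) : ℝ) ≤ J i := by exact_mod_cast hle
        nlinarith
    rw [hc]
    push_cast
    linarith
  have hθ : ∀ i : ℤ, |β * ((J i : ℝ) - (Y - γ * i))| ≤ |β| / 2 := by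
    intro i
    rw [abs_mul]
    have h2 := hJle i
    have h3 := hJlt i
    have h4 : |(J i : ℝ) - (Y - γ * i)| ≤ 1 / 2 := by
      rw [abs_le]; constructor <;> linarith
    calc |β| * |(J i : ℝ) - (Y - γ * i)| ≤ |β| * (1 / 2) :=
          mul_le_mul_of_nonneg_left h4 (abs_nonneg _)
      _ = |β| / 2 := by ring
  have hceq : ∀ i : ℤ, c i = i * (1 - β * γ) + β * Y + β * ((J i : ℝ) - (Y - γ * i)) := by
    intro i
    rw [hc]
    ring
  have hpos : 0 < 1 - β * γ := by linarith
  -- the set of `i` with `c i ≤ X` is nonempty and bounded above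
  have hbdd : ∃ B : ℤ, ∀ i : ℤ, c i ≤ X → i ≤ B := by
    refine ⟨⌈(X - β * Y + |β| / 2) / (1 - β * γ)⌉, fun i hi => ?_⟩
    have h2 := hθ i
    rw [abs_le] at h2
    have h3 : (i : ℝ) * (1 - β * γ) ≤ X - β * Y + |β| / 2 := by
      rw [hceq i] at hi
      linarith [h2.1]
    have h4 : (i : ℝ) ≤ (X - β * Y + |β| / 2) / (1 - β * γ) := by
      rw [le_div_iff₀ hpos]
      exact h3
    have h5 := Int.le_ceil ((X - β * Y + |β| / 2) / (1 - β * γ))
    have h6 : (i : ℝ) ≤ (⌈(X - β * Y + |β| / 2) / (1 - β * γ)⌉ : ℤ) := le_trans h4 h5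
    exact_mod_cast h6
  have hne : ∃ i : ℤ, c i ≤ X := by
    refine ⟨⌊(X - β * Y - |β| / 2) / (1 - β * γ)⌋, ?_⟩
    have h2 := hθ ⌊(X - β * Y - |β| / 2) / (1 - β * γ)⌋
    rw [abs_le] at h2
    have h3 : ((⌊(X - β * Y - |β| / 2) / (1 - β * γ)⌋ : ℤ) : ℝ) ≤
        (X - β * Y - |β| / 2) / (1 - β * γ) := Int.floor_le _
    rw [le_div_iff₀ hpos] at h3
    rw [hceq]
    linarith [h2.2]
  obtain ⟨i0, hi0, hmax⟩ := Int.exists_greatest_of_bdd hbdd hne
  have hnext : X < c (i0 + 1) := by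
    by_contra hcon
    have := hmax (i0 + 1) (not_lt.1 hcon)
    omega
  have hs := hstep i0
  by_cases hcase : X - c i0 ≤ 1 / 2
  · refine ⟨i0, J i0, ?_, hJ1 i0⟩
    have : c i0 = (i0 : ℝ) + β * J i0 := by rw [hc]
    rw [← this, abs_le]
    constructor <;> linarith
  · refine ⟨i0 + 1, J (i0 + 1), ?_, hJ1 (i0 + 1)⟩
    have : c (i0 + 1) = ((i0 + 1 : ℤ) : ℝ) + β * J (i0 + 1) := by rw [hc]
    rw [← this, abs_le]
    constructor <;> linarith

/-- **Local cover in frame coordinates.**  `w = (w1, w2)` are the frame coordinates of `p - q`,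
`(e1, e2)` those of the linearisation error, the linear part is `(w1, w2) ↦ (b w2, c w1)`.
Some lattice square of side `r (1 + η)` centred at `(r i, r j)` and moving with velocity
`(r j b, r i c)` contains the moved point at time `s`, and its centre is close to `w`. -/
theorem local_cover_coords (b c L r η K κ : ℝ) (hr : 0 < r) (hη : 0 ≤ η) (hbc0 : 0 ≤ b * c)
    (hκ : 0 < κ) (hbc1 : κ ≤ 1 - L ^ 2 * (b * c)) (hbK : |b| ≤ K) (hcK : |c| ≤ K)
    (s w1 w2 e1 e2 : ℝ) (hs : |s| ≤ L) (he1 : |s * e1| ≤ η * r / 2)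
    (he2 : |s * e2| ≤ η * r / 2) :
    ∃ i j : ℤ, ∃ x ∈ Set.Icc (0 : ℝ) 1, ∃ y ∈ Set.Icc (0 : ℝ) 1,
      w1 + s * (b * w2 + e1) =
        (r * i - r * (1 + η) / 2 + x * (r * (1 + η))) + s * (r * j * b) ∧
      w2 + s * (c * w1 + e2) =
        (r * j - r * (1 + η) / 2 + y * (r * (1 + η))) + s * (r * i * c) ∧
      |w1 - r * i| ≤ (1 + L * K) / κ * (r / 2) ∧ |w2 - r * j| ≤ (1 + L * K) / κ * (r / 2) := by
  have hL : 0 ≤ L := (abs_nonneg s).trans hs
  have hK : 0 ≤ K := (abs_nonneg b).trans hbK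
  have hs2 : s ^ 2 ≤ L ^ 2 := by
    have := abs_le.1 hs
    nlinarith [this.1, this.2]
  have hβγ0 : 0 ≤ (s * b) * (s * c) := by
    have : (s * b) * (s * c) = s ^ 2 * (b * c) := by ring
    rw [this]; positivity
  have hβγ : (s * b) * (s * c) ≤ 1 - κ := by
    have : (s * b) * (s * c) = s ^ 2 * (b * c) := by ring
    rw [this]
    nlinarith
  have hβγ1 : (s * b) * (s * c) < 1 := by linarith
  obtain ⟨i, j, hX, hY⟩ := lattice_cover (s * b) (s * c) hβγ0 hβγ1
    ((w1 + s * b * w2) / r) ((s * c * w1 + w2) / r)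
  -- the two residuals
  obtain ⟨x', hx'⟩ : ∃ x' : ℝ, x' = w1 + s * b * w2 - r * i - s * b * (r * j) := ⟨_, rfl⟩
  obtain ⟨y', hy'⟩ : ∃ y' : ℝ, y' = w2 + s * c * w1 - r * j - s * c * (r * i) := ⟨_, rfl⟩
  have hx'r : |x'| ≤ r / 2 := by
    have : x' = r * ((w1 + s * b * w2) / r - (i + s * b * j)) := by
      rw [hx']; field_simp; ring
    rw [this, abs_mul, abs_of_pos hr]
    calc r * |(w1 + s * b * w2) / r - (i + s * b * j)| ≤ r * (1 / 2) :=
          mul_le_mul_of_nonneg_left hX hr.le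
      _ = r / 2 := by ring
  have hy'r : |y'| ≤ r / 2 := by
    have : y' = r * ((s * c * w1 + w2) / r - (s * c * i + j)) := by
      rw [hy']; field_simp; ring
    rw [this, abs_mul, abs_of_pos hr]
    calc r * |(s * c * w1 + w2) / r - (s * c * i + j)| ≤ r * (1 / 2) :=
          mul_le_mul_of_nonneg_left hY hr.le
      _ = r / 2 := by ring
  have hr' : 0 < r * (1 + η) := by positivity
  have hxb := abs_le.1 hx'r
  have hyb := abs_le.1 hy'r
  have he1b := abs_le.1 he1
  have he2b := abs_le.1 he2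
  refine ⟨i, j, (x' + s * e1 + r * (1 + η) / 2) / (r * (1 + η)), ⟨?_, ?_⟩,
    (y' + s * e2 + r * (1 + η) / 2) / (r * (1 + η)), ⟨?_, ?_⟩, ?_, ?_, ?_, ?_⟩
  · apply div_nonneg _ hr'.le
    nlinarith [hxb.1, he1b.1]
  · rw [div_le_one hr']
    nlinarith [hxb.2, he1b.2]
  · apply div_nonneg _ hr'.le
    nlinarith [hyb.1, he2b.1]
  · rw [div_le_one hr']
    nlinarith [hyb.2, he2b.2]
  · rw [div_mul_cancel₀ _ hr'.ne', hx']
    ring
  · rw [div_mul_cancel₀ _ hr'.ne', hy']
    ring
  · -- |w1 - r i| bound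
    have hu : (w1 - r * i) * (1 - (s * b) * (s * c)) = x' - s * b * y' := by
      rw [hx', hy']; ring
    have hden : κ ≤ 1 - (s * b) * (s * c) := by linarith
    have hnum : |x' - s * b * y'| ≤ (1 + L * K) * (r / 2) := by
      have h1 : |s * b * y'| ≤ L * K * (r / 2) := by
        rw [abs_mul, abs_mul]
        have : |s| * |b| ≤ L * K := mul_le_mul hs hbK (abs_nonneg _) hL
        exact mul_le_mul this hy'r (abs_nonneg _) (by positivity)
      calc |x' - s * b * y'| ≤ |x'| + |s * b * y'| := abs_sub _ _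
        _ ≤ r / 2 + L * K * (r / 2) := add_le_add hx'r h1
        _ = (1 + L * K) * (r / 2) := by ring
    have h3 : |w1 - r * i| * κ ≤ (1 + L * K) * (r / 2) := by
      calc |w1 - r * i| * κ ≤ |w1 - r * i| * (1 - (s * b) * (s * c)) :=
            mul_le_mul_of_nonneg_left hden (abs_nonneg _)
        _ = |(w1 - r * i) * (1 - (s * b) * (s * c))| := by
            rw [abs_mul, abs_of_pos (lt_of_lt_of_le hκ hden)]
        _ = |x' - s * b * y'| := by rw [hu]
        _ ≤ (1 + L * K) * (r / 2) := hnum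
    rw [div_mul_eq_mul_div, le_div_iff₀ hκ]
    exact h3
  · have hu : (w2 - r * j) * (1 - (s * b) * (s * c)) = y' - s * c * x' := by
      rw [hx', hy']; ring
    have hden : κ ≤ 1 - (s * b) * (s * c) := by linarith
    have hnum : |y' - s * c * x'| ≤ (1 + L * K) * (r / 2) := by
      have h1 : |s * c * x'| ≤ L * K * (r / 2) := by
        rw [abs_mul, abs_mul]
        have : |s| * |c| ≤ L * K := mul_le_mul hs hcK (abs_nonneg _) hL
        exact mul_le_mul this hx'r (abs_nonneg _) (by positivity)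
      calc |y' - s * c * x'| ≤ |y'| + |s * c * x'| := abs_sub _ _
        _ ≤ r / 2 + L * K * (r / 2) := add_le_add hy'r h1
        _ = (1 + L * K) * (r / 2) := by ring
    have h3 : |w2 - r * j| * κ ≤ (1 + L * K) * (r / 2) := by
      calc |w2 - r * j| * κ ≤ |w2 - r * j| * (1 - (s * b) * (s * c)) :=
            mul_le_mul_of_nonneg_left hden (abs_nonneg _)
        _ = |(w2 - r * j) * (1 - (s * b) * (s * c))| := by
            rw [abs_mul, abs_of_pos (lt_of_lt_of_le hκ hden)]
        _ = |y' - s * c * x'| := by rw [hu]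
        _ ≤ (1 + L * K) * (r / 2) := hnum
    rw [div_mul_eq_mul_div, le_div_iff₀ hκ]
    exact h3

end Crest.Agent.Helper5
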