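import Mathlib
import Crest.Agent.Helper5.ShearLattice

/-!
Orthonormal frames in the Euclidean plane adapted to a traceless linear map, and the local
sheared-square cover (used for S0326, row 211).  `helper5`.
-/

set_option autoImplicit false

namespace Crest.Agent.Helper5

/-- The Euclidean plane. -/
abbrev E2 := EuclideanSpace ℝ (Fin 2)

/-- The frame map: `(u, v) ↦ u f₁ + v f₂` with `f₁ = (x, y)`, `f₂ = (-y, x)`. -/
noncomputable def fr (x y u v : ℝ) : E2 := !₂[u * x - v * y, u * y + v * x]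

@[simp] theorem fr_zero (x y u v : ℝ) : (fr x y u v) 0 = u * x - v * y := by simp [fr]

@[simp] theorem fr_one (x y u v : ℝ) : (fr x y u v) 1 = u * y + v * x := by simp [fr]

theorem e2_ext {z w : E2} (h0 : z 0 = w 0) (h1 : z 1 = w 1) : z = w := by
  ext i
  fin_cases i
  · exact h0
  · exact h1

theorem fr_add (x y u v u' v' : ℝ) :
    fr x y u v + fr x y u' v' = fr x y (u + u') (v + v') := by
  apply e2_ext <;> simp <;> ring

theorem fr_sub (x y u v u' v' : ℝ) :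
    fr x y u v - fr x y u' v' = fr x y (u - u') (v - v') := by
  apply e2_ext <;> simp <;> ring

theorem fr_smul (x y s u v : ℝ) : s • fr x y u v = fr x y (s * u) (s * v) := by
  apply e2_ext <;> simp <;> ring

theorem norm_sq_e2 (z : E2) : ‖z‖ ^ 2 = z 0 ^ 2 + z 1 ^ 2 := by
  rw [EuclideanSpace.norm_eq, Real.sq_sqrt (by positivity)]
  simp [Fin.sum_univ_two]

theorem inner_e2 (z w : E2) : inner ℝ z w = z 0 * w 0 + z 1 * w 1 := by
  simp [PiLp.inner_apply, Fin.sum_univ_two]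
  ring

theorem abs_coord_le_norm (z : E2) (i : Fin 2) : |z i| ≤ ‖z‖ := by
  have h := PiLp.norm_apply_le (p := 2) z i
  rwa [Real.norm_eq_abs] at h

theorem norm_sq_fr (x y u v : ℝ) (h : x ^ 2 + y ^ 2 = 1) :
    ‖fr x y u v‖ ^ 2 = u ^ 2 + v ^ 2 := by
  rw [norm_sq_e2]
  simp only [fr_zero, fr_one]
  linear_combination (u ^ 2 + v ^ 2) * h

theorem eq_fr (x y : ℝ) (h : x ^ 2 + y ^ 2 = 1) (z : E2) :
    z = fr x y (z 0 * x + z 1 * y) (-(z 0) * y + z 1 * x) := by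
  apply e2_ext
  · simp only [fr_zero]; linear_combination (-(z 0)) * h
  · simp only [fr_one]; linear_combination (-(z 1)) * h

theorem single_zero_eq : EuclideanSpace.single (0 : Fin 2) (1 : ℝ) = fr 1 0 1 0 := by
  apply e2_ext <;> simp

theorem single_one_eq : EuclideanSpace.single (1 : Fin 2) (1 : ℝ) = fr 1 0 0 1 := by
  apply e2_ext <;> simp

theorem fr_eq_comb (x y u v : ℝ) :
    fr x y u v = (u * x - v * y) • fr 1 0 1 0 + (u * y + v * x) • fr 1 0 0 1 := by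
  apply e2_ext <;> simp

theorem trace_e2 (M : E2 →L[ℝ] E2) :
    LinearMap.trace ℝ E2 M.toLinearMap = (M (fr 1 0 1 0)) 0 + (M (fr 1 0 0 1)) 1 := by
  rw [LinearMap.trace_eq_matrix_trace ℝ (EuclideanSpace.basisFun (Fin 2) ℝ).toBasis]
  rw [Matrix.trace_fin_two]
  simp [LinearMap.toMatrix_apply, single_zero_eq, single_one_eq]

theorem det_e2 (M : E2 →L[ℝ] E2) :
    LinearMap.det M.toLinearMap =
      (M (fr 1 0 1 0)) 0 * (M (fr 1 0 0 1)) 1 - (M (fr 1 0 0 1)) 0 * (M (fr 1 0 1 0)) 1 := by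
  rw [← LinearMap.det_toMatrix (EuclideanSpace.basisFun (Fin 2) ℝ).toBasis]
  rw [Matrix.det_fin_two]
  simp [LinearMap.toMatrix_apply, single_zero_eq, single_one_eq]

/-- A unit vector on which a traceless quadratic form vanishes. -/
theorem exists_unit_isotropic (m k : ℝ) :
    ∃ x y : ℝ, x ^ 2 + y ^ 2 = 1 ∧ m * (x ^ 2 - y ^ 2) + k * x * y = 0 := by
  by_cases hm : m = 0
  · exact ⟨1, 0, by norm_num, by simp [hm]⟩
  · obtain ⟨S, hS⟩ : ∃ S : ℝ, S = Real.sqrt (k ^ 2 + 4 * m ^ 2) := ⟨_, rfl⟩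
    have hS2 : S ^ 2 = k ^ 2 + 4 * m ^ 2 := by
      rw [hS]; exact Real.sq_sqrt (by positivity)
    obtain ⟨t, ht⟩ : ∃ t : ℝ, t = (-k + S) / (2 * m) := ⟨_, rfl⟩
    have hroot : m * t ^ 2 + k * t - m = 0 := by
      have h1 : m * t ^ 2 + k * t - m = (S ^ 2 - k ^ 2 - 4 * m ^ 2) / (4 * m) := by
        rw [ht]; field_simp; ring
      rw [h1, hS2]
      have h2 : k ^ 2 + 4 * m ^ 2 - k ^ 2 - 4 * m ^ 2 = 0 := by ring
      rw [h2, zero_div]
    have hpos : 0 < t ^ 2 + 1 := by positivity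
    obtain ⟨n, hn⟩ : ∃ n : ℝ, n = Real.sqrt (t ^ 2 + 1) := ⟨_, rfl⟩
    have hn2 : n ^ 2 = t ^ 2 + 1 := by
      rw [hn]; exact Real.sq_sqrt hpos.le
    have hn0 : n ≠ 0 := by
      rw [hn]; exact (Real.sqrt_pos.2 hpos).ne'
    refine ⟨t / n, 1 / n, ?_, ?_⟩
    · rw [div_pow, div_pow, one_pow, ← add_div, hn2, div_self hpos.ne']
    · have h1 : m * ((t / n) ^ 2 - (1 / n) ^ 2) + k * (t / n) * (1 / n) =
          (m * t ^ 2 + k * t - m) / n ^ 2 := by
        field_simp; ring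
      rw [h1, hroot, zero_div]

/-- **Frame lemma.** A traceless linear map of the plane is anti-diagonal in a suitable
orthonormal frame. -/
theorem exists_frame (M : E2 →L[ℝ] E2) (htr : LinearMap.trace ℝ E2 M.toLinearMap = 0) :
    ∃ x y b c : ℝ, x ^ 2 + y ^ 2 = 1 ∧ (∀ u v : ℝ, M (fr x y u v) = fr x y (b * v) (c * u)) ∧
      b * c = -LinearMap.det M.toLinearMap ∧ |b| ≤ ‖M‖ ∧ |c| ≤ ‖M‖ := by
  rw [trace_e2] at htr
  obtain ⟨m11, h11⟩ : ∃ a : ℝ, a = (M (fr 1 0 1 0)) 0 := ⟨_, rfl⟩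
  obtain ⟨m21, h21⟩ : ∃ a : ℝ, a = (M (fr 1 0 1 0)) 1 := ⟨_, rfl⟩
  obtain ⟨m12, h12⟩ : ∃ a : ℝ, a = (M (fr 1 0 0 1)) 0 := ⟨_, rfl⟩
  obtain ⟨m22, h22⟩ : ∃ a : ℝ, a = (M (fr 1 0 0 1)) 1 := ⟨_, rfl⟩
  rw [← h11, ← h22] at htr
  have hM0 : ∀ x y u v : ℝ, (M (fr x y u v)) 0 = (u * x - v * y) * m11 + (u * y + v * x) * m12 := by
    intro x y u v
    rw [fr_eq_comb, map_add, map_smul, map_smul, h11, h12]
    simp
  have hM1 : ∀ x y u v : ℝ, (M (fr x y u v)) 1 = (u * x - v * y) * m21 + (u * y + v * x) * m22 := by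
    intro x y u v
    rw [fr_eq_comb, map_add, map_smul, map_smul, h21, h22]
    simp
  obtain ⟨x, y, hxy, hiso⟩ := exists_unit_isotropic m11 (m12 + m21)
  have hm22 : m22 = -m11 := by linarith
  obtain ⟨b, hb⟩ : ∃ b : ℝ, b = (-y * m11 + x * m12) * x + (-y * m21 + x * m22) * y := ⟨_, rfl⟩
  obtain ⟨c, hc⟩ : ∃ c : ℝ, c = -(x * m11 + y * m12) * y + (x * m21 + y * m22) * x := ⟨_, rfl⟩
  have hf1 : M (fr x y 1 0) = fr x y 0 c := by
    rw [eq_fr x y hxy (M (fr x y 1 0)), hM0, hM1]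
    congr 1
    · rw [hm22]; linear_combination hiso
    · rw [hc]; ring
  have hf2 : M (fr x y 0 1) = fr x y b 0 := by
    rw [eq_fr x y hxy (M (fr x y 0 1)), hM0, hM1]
    congr 1
    · rw [hb]; ring
    · rw [hm22]; linear_combination (-1 : ℝ) * hiso
  have hMfr : ∀ u v : ℝ, M (fr x y u v) = fr x y (b * v) (c * u) := by
    intro u v
    have h1 : fr x y u v = u • fr x y 1 0 + v • fr x y 0 1 := by
      rw [fr_smul, fr_smul, fr_add]; congr 1 <;> ring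
    rw [h1, map_add, map_smul, map_smul, hf1, hf2, fr_smul, fr_smul, fr_add]
    congr 1 <;> ring
  have hnorm1 : ∀ u v : ℝ, ‖fr x y u v‖ = Real.sqrt (u ^ 2 + v ^ 2) := by
    intro u v
    rw [← norm_sq_fr x y u v hxy, Real.sqrt_sq (norm_nonneg _)]
  refine ⟨x, y, b, c, hxy, hMfr, ?_, ?_, ?_⟩
  · rw [det_e2, ← h11, ← h12, ← h21, ← h22, hb, hc, hm22]
    have key : ∀ X Y a b' c' : ℝ, X ^ 2 + Y ^ 2 = 1 → a * (X ^ 2 - Y ^ 2) + (b' + c') * X * Y = 0 →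
        ((-Y * a + X * b') * X + (-Y * c' + X * -a) * Y) *
          (-(X * a + Y * b') * Y + (X * c' + Y * -a) * X) = -(a * -a - b' * c') := by
      intro X Y a b' c' h1 h2
      have e1 : ((-Y * a + X * b') * X + (-Y * c' + X * -a) * Y) *
          (-(X * a + Y * b') * Y + (X * c' + Y * -a) * X) =
          (X ^ 2 + Y ^ 2) ^ 2 * (a ^ 2 + b' * c') -
            (a * (X ^ 2 - Y ^ 2) + (b' + c') * X * Y) ^ 2 := by ring
      rw [e1, h1, h2]; ring
    exact key x y m11 m12 m21 hxy hiso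
  · have h1 : ‖M (fr x y 0 1)‖ ≤ ‖M‖ * ‖fr x y 0 1‖ := M.le_opNorm _
    rw [hf2, hnorm1, hnorm1] at h1
    simpa [Real.sqrt_sq_eq_abs] using h1
  · have h1 : ‖M (fr x y 1 0)‖ ≤ ‖M‖ * ‖fr x y 1 0‖ := M.le_opNorm _
    rw [hf1, hnorm1, hnorm1] at h1
    simpa [Real.sqrt_sq_eq_abs] using h1

end Crest.Agent.Helper5
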