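import Mathlib
import Crest.Agent.Helper5.ShearFrame

/-!
The local family of sheared lattice squares at a base point, in vector form
(used for S0326, row 211).  `helper5`.
-/

set_option autoImplicit false

namespace Crest.Agent.Helper5

/-- Corner of the lattice square `(i, j)` of side `r (1 + η)` in the frame `(x, y)` at `q`. -/
noncomputable def sqC (q : E2) (x y r η : ℝ) (i j : ℤ) : E2 :=
  q + fr x y (r * i - r * (1 + η) / 2) (r * j - r * (1 + η) / 2)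

/-- First side vector of the lattice squares. -/
noncomputable def sqA (x y r η : ℝ) : E2 := fr x y (r * (1 + η)) 0

/-- Second side vector of the lattice squares. -/
noncomputable def sqB (x y r η : ℝ) : E2 := fr x y 0 (r * (1 + η))

/-- Velocity of the lattice square `(i, j)`. -/
noncomputable def sqG (g0 : E2) (x y b c r : ℝ) (i j : ℤ) : E2 :=
  g0 + fr x y (r * j * b) (r * i * c)

/-- Centre of the lattice square `(i, j)`. -/
noncomputable def sqP (q : E2) (x y r : ℝ) (i j : ℤ) : E2 := q + fr x y (r * i) (r * j)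

theorem norm_fr (x y u v : ℝ) (h : x ^ 2 + y ^ 2 = 1) :
    ‖fr x y u v‖ = Real.sqrt (u ^ 2 + v ^ 2) := by
  rw [← norm_sq_fr x y u v h, Real.sqrt_sq (norm_nonneg _)]

theorem norm_sqA (x y r η : ℝ) (h : x ^ 2 + y ^ 2 = 1) (hr : 0 < r) (hη : 0 ≤ η) :
    ‖sqA x y r η‖ = r * (1 + η) := by
  rw [sqA, norm_fr x y _ _ h]
  have : (r * (1 + η)) ^ 2 + (0 : ℝ) ^ 2 = (r * (1 + η)) ^ 2 := by ring
  rw [this, Real.sqrt_sq (by positivity)]

theorem norm_sqB (x y r η : ℝ) (h : x ^ 2 + y ^ 2 = 1) (hr : 0 < r) (hη : 0 ≤ η) :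
    ‖sqB x y r η‖ = r * (1 + η) := by
  rw [sqB, norm_fr x y _ _ h]
  have : (0 : ℝ) ^ 2 + (r * (1 + η)) ^ 2 = (r * (1 + η)) ^ 2 := by ring
  rw [this, Real.sqrt_sq (by positivity)]

theorem inner_sqA_sqB (x y r η : ℝ) : inner ℝ (sqA x y r η) (sqB x y r η) = 0 := by
  rw [inner_e2, sqA, sqB]
  simp only [fr_zero, fr_one]
  ring

theorem sqA_ne_zero (x y r η : ℝ) (h : x ^ 2 + y ^ 2 = 1) (hr : 0 < r) (hη : 0 ≤ η) :
    sqA x y r η ≠ 0 := by
  intro h0
  have h1 := norm_sqA x y r η h hr hη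
  rw [h0, norm_zero] at h1
  have : 0 < r * (1 + η) := by positivity
  linarith

/-- The velocity of a lattice square differs from the base velocity by at most `K` times the
distance of its centre from the base point. -/
theorem norm_sqG_sub (g0 q : E2) (x y b c r K : ℝ) (h : x ^ 2 + y ^ 2 = 1) (hb : |b| ≤ K)
    (hc : |c| ≤ K) (i j : ℤ) :
    ‖sqG g0 x y b c r i j - g0‖ ≤ K * ‖sqP q x y r i j - q‖ := by
  have hK : 0 ≤ K := (abs_nonneg b).trans hb
  have e1 : sqG g0 x y b c r i j - g0 = fr x y (r * j * b) (r * i * c) := by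
    rw [sqG]; abel
  have e2 : sqP q x y r i j - q = fr x y (r * i) (r * j) := by
    rw [sqP]; abel
  rw [e1, e2, norm_fr x y _ _ h, norm_fr x y _ _ h]
  have hb2 : b ^ 2 ≤ K ^ 2 := by
    have := abs_le.1 hb
    nlinarith [this.1, this.2]
  have hc2 : c ^ 2 ≤ K ^ 2 := by
    have := abs_le.1 hc
    nlinarith [this.1, this.2]
  have h3 : (r * j * b) ^ 2 + (r * i * c) ^ 2 ≤ K ^ 2 * ((r * i) ^ 2 + (r * j) ^ 2) := by
    nlinarith [sq_nonneg (r * (j : ℝ)), sq_nonneg (r * (i : ℝ))]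
  calc Real.sqrt ((r * j * b) ^ 2 + (r * i * c) ^ 2)
      ≤ Real.sqrt (K ^ 2 * ((r * i) ^ 2 + (r * j) ^ 2)) := Real.sqrt_le_sqrt h3
    _ = K * Real.sqrt ((r * i) ^ 2 + (r * j) ^ 2) := by
        rw [Real.sqrt_mul (sq_nonneg K), Real.sqrt_sq hK]

/-- **Local cover, vector form.**  If `M` is anti-diagonal in the frame `(x, y)`, the moved
point `p + s • gp` lies, at time `s`, in one of the sheared lattice squares based at `q`,
provided the linearisation error of the velocity is small; the centre of that square is within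
`(1 + L K)/κ * r` of `p`. -/
theorem local_cover_vec (M : E2 →L[ℝ] E2) (x y b c : ℝ) (hxy : x ^ 2 + y ^ 2 = 1)
    (hM : ∀ u v : ℝ, M (fr x y u v) = fr x y (b * v) (c * u))
    (L r η K κ : ℝ) (hr : 0 < r) (hη : 0 ≤ η) (hbc0 : 0 ≤ b * c) (hκ : 0 < κ)
    (hbc1 : κ ≤ 1 - L ^ 2 * (b * c)) (hbK : |b| ≤ K) (hcK : |c| ≤ K)
    (q g0 p gp : E2) (s : ℝ) (hs : |s| ≤ L)
    (he : |s| * ‖gp - g0 - M (p - q)‖ ≤ η * r / 2) :
    ∃ i j : ℤ, (∃ t ∈ Set.Icc (0 : ℝ) 1, ∃ t' ∈ Set.Icc (0 : ℝ) 1,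
      p + s • gp = sqC q x y r η i j + t • sqA x y r η + t' • sqB x y r η +
        s • sqG g0 x y b c r i j) ∧
      ‖p - sqP q x y r i j‖ ≤ (1 + L * K) / κ * r := by
  have hL : 0 ≤ L := (abs_nonneg s).trans hs
  have hK : 0 ≤ K := (abs_nonneg b).trans hbK
  obtain ⟨w1, hw1⟩ : ∃ w1 : ℝ, w1 = (p - q) 0 * x + (p - q) 1 * y := ⟨_, rfl⟩
  obtain ⟨w2, hw2⟩ : ∃ w2 : ℝ, w2 = -((p - q) 0) * y + (p - q) 1 * x := ⟨_, rfl⟩
  obtain ⟨e, he0⟩ : ∃ e : E2, e = gp - g0 - M (p - q) := ⟨_, rfl⟩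
  obtain ⟨e1, he1⟩ : ∃ e1 : ℝ, e1 = e 0 * x + e 1 * y := ⟨_, rfl⟩
  obtain ⟨e2, he2⟩ : ∃ e2 : ℝ, e2 = -(e 0) * y + e 1 * x := ⟨_, rfl⟩
  have hw : p - q = fr x y w1 w2 := by
    rw [hw1, hw2]; exact eq_fr x y hxy (p - q)
  have hefr : e = fr x y e1 e2 := by
    rw [he1, he2]; exact eq_fr x y hxy e
  have hp : p = q + fr x y w1 w2 := by
    rw [← hw]; abel
  have hgp : gp = g0 + fr x y (b * w2 + e1) (c * w1 + e2) := by
    have h1 : gp = g0 + (M (p - q) + e) := by rw [he0]; abel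
    rw [h1, hw, hM, hefr, fr_add]
  have henorm : ‖e‖ ^ 2 = e1 ^ 2 + e2 ^ 2 := by
    rw [hefr]; exact norm_sq_fr x y e1 e2 hxy
  have he1le : |e1| ≤ ‖e‖ :=
    abs_le_of_sq_le_sq (by nlinarith [sq_nonneg e2]) (norm_nonneg e)
  have he2le : |e2| ≤ ‖e‖ :=
    abs_le_of_sq_le_sq (by nlinarith [sq_nonneg e1]) (norm_nonneg e)
  rw [← he0] at he
  have hse1 : |s * e1| ≤ η * r / 2 := by
    rw [abs_mul]
    exact (mul_le_mul_of_nonneg_left he1le (abs_nonneg s)).trans he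
  have hse2 : |s * e2| ≤ η * r / 2 := by
    rw [abs_mul]
    exact (mul_le_mul_of_nonneg_left he2le (abs_nonneg s)).trans he
  obtain ⟨i, j, t, ht, t', ht', eq1, eq2, hb1, hb2⟩ :=
    local_cover_coords b c L r η K κ hr hη hbc0 hκ hbc1 hbK hcK s w1 w2 e1 e2 hs hse1 hse2
  refine ⟨i, j, ⟨t, ht, t', ht', ?_⟩, ?_⟩
  · rw [hp, hgp]
    apply e2_ext
    · simp only [sqC, sqA, sqB, sqG, PiLp.add_apply, PiLp.smul_apply, smul_eq_mul, fr_zero]
      linear_combination x * eq1 - y * eq2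
    · simp only [sqC, sqA, sqB, sqG, PiLp.add_apply, PiLp.smul_apply, smul_eq_mul, fr_one]
      linear_combination y * eq1 + x * eq2
  · have e3 : p - sqP q x y r i j = fr x y (w1 - r * i) (w2 - r * j) := by
      rw [hp, sqP, ← fr_sub]; abel
    rw [e3, norm_fr x y _ _ hxy]
    have hC : 0 ≤ (1 + L * K) / κ * (r / 2) := by positivity
    have h1 : (w1 - r * i) ^ 2 ≤ ((1 + L * K) / κ * (r / 2)) ^ 2 :=
      sq_le_sq' (abs_le.1 hb1).1 (abs_le.1 hb1).2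
    have h2 : (w2 - r * j) ^ 2 ≤ ((1 + L * K) / κ * (r / 2)) ^ 2 :=
      sq_le_sq' (abs_le.1 hb2).1 (abs_le.1 hb2).2
    have hC' : 0 ≤ (1 + L * K) / κ * r := by positivity
    refine Real.sqrt_le_iff.2 ⟨hC', ?_⟩
    have h3 : ((1 + L * K) / κ * r) ^ 2 = 4 * ((1 + L * K) / κ * (r / 2)) ^ 2 := by ring
    rw [h3]
    nlinarith [sq_nonneg ((1 + L * K) / κ * (r / 2))]

end Crest.Agent.Helper5
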