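import Mathlib
import Crest.Agent.Helper5.ShearLocal

/-!
Measure-theoretic bookkeeping for S0326 (row 211): volumes of axis-parallel boxes and of
rotated lattice squares in the Euclidean plane, a packing count, the mesoscale grid of cells
and the Riemann-sum comparison.  `helper5`.
-/

set_option autoImplicit false

open MeasureTheory Metric

namespace Crest.Agent.Helper5

/-- Half-open axis-parallel box. -/
def hbox (a0 b0 a1 b1 : ℝ) : Set E2 := {z | a0 ≤ z 0 ∧ z 0 < b0 ∧ a1 ≤ z 1 ∧ z 1 < b1}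

theorem mem_hbox (a0 b0 a1 b1 : ℝ) (z : E2) :
    z ∈ hbox a0 b0 a1 b1 ↔ a0 ≤ z 0 ∧ z 0 < b0 ∧ a1 ≤ z 1 ∧ z 1 < b1 := Iff.rfl

theorem hbox_eq_preimage (a0 b0 a1 b1 : ℝ) :
    hbox a0 b0 a1 b1 = (WithLp.ofLp : E2 → (Fin 2 → ℝ)) ⁻¹'
      (Set.pi Set.univ fun i => Set.Ico (![a0, a1] i) (![b0, b1] i)) := by
  ext z
  rw [mem_hbox]
  simp only [Set.mem_preimage, Set.mem_pi, Set.mem_univ, forall_const,
    Set.mem_Ico, Fin.forall_fin_two]
  simp
  tauto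

theorem measurableSet_hbox (a0 b0 a1 b1 : ℝ) : MeasurableSet (hbox a0 b0 a1 b1) := by
  rw [hbox_eq_preimage]
  exact (PiLp.volume_preserving_ofLp (ι := Fin 2)).measurable
    (MeasurableSet.univ_pi fun i => measurableSet_Ico)

theorem volume_hbox (a0 b0 a1 b1 : ℝ) :
    volume (hbox a0 b0 a1 b1) = ENNReal.ofReal (b0 - a0) * ENNReal.ofReal (b1 - a1) := by
  rw [hbox_eq_preimage, (PiLp.volume_preserving_ofLp (ι := Fin 2)).measure_preimage
    (MeasurableSet.univ_pi fun i => measurableSet_Ico).nullMeasurableSet, Real.volume_pi_Ico,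
    Fin.prod_univ_two]
  simp

/-- Frame coordinates, as a linear map. -/
noncomputable def cfL (x y : ℝ) : E2 →ₗ[ℝ] E2 where
  toFun z := fr x (-y) (z 0) (z 1)
  map_add' z w := by
    rw [fr_add]; rfl
  map_smul' s z := by
    rw [RingHom.id_apply, fr_smul]; rfl

theorem cfL_apply (x y : ℝ) (z : E2) : cfL x y z = fr x (-y) (z 0) (z 1) := rfl

theorem det_cfL (x y : ℝ) (h : x ^ 2 + y ^ 2 = 1) : LinearMap.det (cfL x y) = 1 := by
  rw [← LinearMap.det_toMatrix (EuclideanSpace.basisFun (Fin 2) ℝ).toBasis, Matrix.det_fin_two]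
  simp [LinearMap.toMatrix_apply, cfL_apply]
  linear_combination h

/-- Half-open frame square with lower corner at the lattice point `(i, j)`. -/
def fsq (q : E2) (x y r : ℝ) (i j : ℤ) : Set E2 :=
  (fun z => z + -q) ⁻¹' (cfL x y ⁻¹' hbox (r * i) (r * (i + 1)) (r * j) (r * (j + 1)))

theorem mem_fsq (q z : E2) (x y r : ℝ) (i j : ℤ) :
    z ∈ fsq q x y r i j ↔
      r * i ≤ (z - q) 0 * x + (z - q) 1 * y ∧ (z - q) 0 * x + (z - q) 1 * y < r * (i + 1) ∧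
      r * j ≤ -((z - q) 0) * y + (z - q) 1 * x ∧
        -((z - q) 0) * y + (z - q) 1 * x < r * (j + 1) := by
  simp only [fsq, Set.mem_preimage, mem_hbox, cfL_apply, fr_zero, fr_one, ← sub_eq_add_neg]
  constructor
  · rintro ⟨h1, h2, h3, h4⟩
    refine ⟨by linarith, by linarith, by linarith, by linarith⟩
  · rintro ⟨h1, h2, h3, h4⟩
    refine ⟨by linarith, by linarith, by linarith, by linarith⟩

theorem measurableSet_fsq (q : E2) (x y r : ℝ) (i j : ℤ) : MeasurableSet (fsq q x y r i j) := by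
  have h1 : Measurable (cfL x y) := (LinearMap.continuous_of_finiteDimensional _).measurable
  have h2 : Measurable (fun z : E2 => z + -q) := (continuous_id.add continuous_const).measurable
  exact h2 (h1 (measurableSet_hbox _ _ _ _))

theorem volume_fsq (q : E2) (x y r : ℝ) (hxy : x ^ 2 + y ^ 2 = 1) (hr : 0 ≤ r) (i j : ℤ) :
    volume (fsq q x y r i j) = ENNReal.ofReal (r ^ 2) := by
  rw [fsq, measure_preimage_add_right,
    Measure.addHaar_preimage_linearMap volume (by rw [det_cfL x y hxy]; exact one_ne_zero),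
    det_cfL x y hxy, volume_hbox]
  have e1 : r * ((i : ℝ) + 1) - r * i = r := by ring
  have e2 : r * ((j : ℝ) + 1) - r * j = r := by ring
  rw [e1, e2, ← ENNReal.ofReal_mul hr, ← sq]
  simp

theorem fsq_disjoint (q : E2) (x y r : ℝ) (hr : 0 < r) {i j i' j' : ℤ}
    (hne : (i, j) ≠ (i', j')) : Disjoint (fsq q x y r i j) (fsq q x y r i' j') := by
  rw [Set.disjoint_left]
  intro z hz hz'
  rw [mem_fsq] at hz hz'
  obtain ⟨a1, a2, a3, a4⟩ := hz
  obtain ⟨b1, b2, b3, b4⟩ := hz'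
  apply hne
  have hlt : ∀ {m m' : ℤ} {u : ℝ}, r * m ≤ u → u < r * (m' + 1) → m ≤ m' := by
    intro m m' u h1 h2
    have h3 : r * (m : ℝ) < r * ((m' : ℝ) + 1) := lt_of_le_of_lt h1 h2
    have h4 : (m : ℝ) < (m' : ℝ) + 1 := lt_of_mul_lt_mul_left h3 hr.le
    have h5 : m < m' + 1 := by exact_mod_cast h4
    omega
  have hi : i = i' := le_antisymm (hlt a1 b2) (hlt b1 a2)
  have hj : j = j' := le_antisymm (hlt a3 b4) (hlt b3 a4)
  rw [hi, hj]

/-- A point of the frame square `(i, j)` is within `2 r` of the lattice point `(i, j)`. -/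
theorem norm_sub_sqP_le_of_mem_fsq (q z : E2) (x y r : ℝ) (hxy : x ^ 2 + y ^ 2 = 1) (hr : 0 < r)
    (i j : ℤ) (hz : z ∈ fsq q x y r i j) : ‖z - sqP q x y r i j‖ ≤ 2 * r := by
  rw [mem_fsq] at hz
  obtain ⟨a1, a2, a3, a4⟩ := hz
  have e1 : z - sqP q x y r i j =
      fr x y ((z - q) 0 * x + (z - q) 1 * y - r * i) (-((z - q) 0) * y + (z - q) 1 * x - r * j) := by
    rw [← fr_sub, ← eq_fr x y hxy (z - q), sqP]
    abel
  rw [e1, norm_fr x y _ _ hxy]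
  refine Real.sqrt_le_iff.2 ⟨by positivity, ?_⟩
  have h1 : ((z - q) 0 * x + (z - q) 1 * y - r * i) ^ 2 ≤ r ^ 2 :=
    sq_le_sq' (by linarith) (by linarith)
  have h2 : (-((z - q) 0) * y + (z - q) 1 * x - r * j) ^ 2 ≤ r ^ 2 :=
    sq_le_sq' (by linarith) (by linarith)
  nlinarith

/-- **Packing count.** Finitely many pairwise disjoint measurable sets of volume `a` inside a
set of volume at most `b`: their number times `a` is at most `b`. -/
theorem packing_count {ι : Type*} (I : Finset ι) (S : ι → Set E2)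
    (hS : ∀ i ∈ I, MeasurableSet (S i)) (hdisj : (I : Set ι).PairwiseDisjoint S)
    (a : ℝ) (ha : 0 ≤ a) (hvol : ∀ i ∈ I, volume (S i) = ENNReal.ofReal a)
    (B : Set E2) (hsub : ∀ i ∈ I, S i ⊆ B) (b : ℝ) (hb : 0 ≤ b)
    (hB : volume B ≤ ENNReal.ofReal b) : (I.card : ℝ) * a ≤ b := by
  have h1 : volume (⋃ i ∈ I, S i) = ∑ i ∈ I, volume (S i) := measure_biUnion_finset hdisj hS
  have h2 : ∑ i ∈ I, volume (S i) = ENNReal.ofReal (I.card * a) := by
    rw [Finset.sum_congr rfl hvol, Finset.sum_const, nsmul_eq_mul,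
      ENNReal.ofReal_mul (by positivity)]
    simp
  have h3 : volume (⋃ i ∈ I, S i) ≤ volume B := measure_mono (Set.iUnion₂_subset hsub)
  have h4 : ENNReal.ofReal (I.card * a) ≤ ENNReal.ofReal b := by
    rw [← h2, ← h1]; exact h3.trans hB
  exact (ENNReal.ofReal_le_ofReal_iff hb).1 h4

/-- The mesoscale cell with index `Q`. -/
def cell (ρ : ℝ) (Q : ℤ × ℤ) : Set E2 :=
  hbox (ρ * Q.1) (ρ * (Q.1 + 1)) (ρ * Q.2) (ρ * (Q.2 + 1))

theorem measurableSet_cell (ρ : ℝ) (Q : ℤ × ℤ) : MeasurableSet (cell ρ Q) :=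
  measurableSet_hbox _ _ _ _

theorem volume_cell (ρ : ℝ) (hρ : 0 ≤ ρ) (Q : ℤ × ℤ) :
    volume (cell ρ Q) = ENNReal.ofReal (ρ ^ 2) := by
  rw [cell, volume_hbox]
  have e1 : ρ * ((Q.1 : ℝ) + 1) - ρ * Q.1 = ρ := by ring
  have e2 : ρ * ((Q.2 : ℝ) + 1) - ρ * Q.2 = ρ := by ring
  rw [e1, e2, ← ENNReal.ofReal_mul hρ, ← sq]

/-- The index of the cell containing a point. -/
noncomputable def cellKey (ρ : ℝ) (p : E2) : ℤ × ℤ := (⌊p 0 / ρ⌋, ⌊p 1 / ρ⌋)

theorem mem_cell_cellKey (ρ : ℝ) (hρ : 0 < ρ) (p : E2) : p ∈ cell ρ (cellKey ρ p) := by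
  rw [cell, mem_hbox]
  have h1 := Int.floor_le (p 0 / ρ)
  have h2 := Int.lt_floor_add_one (p 0 / ρ)
  have h3 := Int.floor_le (p 1 / ρ)
  have h4 := Int.lt_floor_add_one (p 1 / ρ)
  rw [le_div_iff₀ hρ] at h1 h3
  rw [div_lt_iff₀ hρ] at h2 h4
  simp only [cellKey]
  refine ⟨by linarith, by linarith, by linarith, by linarith⟩

theorem cell_disjoint (ρ : ℝ) (hρ : 0 < ρ) {Q Q' : ℤ × ℤ} (hne : Q ≠ Q') :
    Disjoint (cell ρ Q) (cell ρ Q') := by
  rw [Set.disjoint_left]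
  intro z hz hz'
  rw [cell, mem_hbox] at hz hz'
  obtain ⟨a1, a2, a3, a4⟩ := hz
  obtain ⟨b1, b2, b3, b4⟩ := hz'
  apply hne
  have hlt : ∀ {m m' : ℤ} {u : ℝ}, ρ * m ≤ u → u < ρ * (m' + 1) → m ≤ m' := by
    intro m m' u h1 h2
    have h3 : ρ * (m : ℝ) < ρ * ((m' : ℝ) + 1) := lt_of_le_of_lt h1 h2
    have h4 : (m : ℝ) < (m' : ℝ) + 1 := lt_of_mul_lt_mul_left h3 hρ.le
    have h5 : m < m' + 1 := by exact_mod_cast h4
    omega
  exact Prod.ext (le_antisymm (hlt a1 b2) (hlt b1 a2)) (le_antisymm (hlt a3 b4) (hlt b3 a4))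

theorem cell_diam (ρ : ℝ) (hρ : 0 < ρ) (Q : ℤ × ℤ) {z z' : E2} (hz : z ∈ cell ρ Q)
    (hz' : z' ∈ cell ρ Q) : ‖z - z'‖ ≤ 2 * ρ := by
  rw [cell, mem_hbox] at hz hz'
  obtain ⟨a1, a2, a3, a4⟩ := hz
  obtain ⟨b1, b2, b3, b4⟩ := hz'
  have h0 : ‖z - z'‖ ^ 2 = (z 0 - z' 0) ^ 2 + (z 1 - z' 1) ^ 2 := by
    rw [norm_sq_e2]; simp
  have h1 : (z 0 - z' 0) ^ 2 ≤ ρ ^ 2 := sq_le_sq' (by linarith) (by linarith)
  have h2 : (z 1 - z' 1) ^ 2 ≤ ρ ^ 2 := sq_le_sq' (by linarith) (by linarith)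
  have h3 : ‖z - z'‖ ^ 2 ≤ (2 * ρ) ^ 2 := by nlinarith
  exact abs_le_of_sq_le_sq' h3 (by positivity) |>.2

/-- Finitely many cells cover a compact set, each of them meeting it. -/
theorem exists_cells {D : Set E2} (hD : IsCompact D) (ρ : ℝ) (hρ : 0 < ρ) :
    ∃ 𝒬 : Finset (ℤ × ℤ), (∀ p ∈ D, cellKey ρ p ∈ 𝒬) ∧ ∀ Q ∈ 𝒬, ∃ p ∈ D, p ∈ cell ρ Q := by
  obtain ⟨R, hR⟩ := hD.isBounded.exists_norm_le
  have hfin : (cellKey ρ '' D).Finite := by
    refine Set.Finite.subset ((Set.finite_Icc ⌊-R / ρ⌋ ⌊R / ρ⌋).prod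
      (Set.finite_Icc ⌊-R / ρ⌋ ⌊R / ρ⌋)) ?_
    rintro _ ⟨p, hp, rfl⟩
    have hb : ∀ i : Fin 2, ⌊p i / ρ⌋ ∈ Set.Icc ⌊-R / ρ⌋ ⌊R / ρ⌋ := by
      intro i
      have h1 := abs_le.1 ((abs_coord_le_norm p i).trans (hR p hp))
      constructor
      · apply Int.floor_le_floor
        apply div_le_div_of_nonneg_right _ hρ.le
        linarith [h1.1]
      · apply Int.floor_le_floor
        apply div_le_div_of_nonneg_right _ hρ.le
        exact h1.2
    exact ⟨hb 0, hb 1⟩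
  refine ⟨hfin.toFinset, fun p hp => ?_, fun Q hQ => ?_⟩
  · rw [Set.Finite.mem_toFinset]
    exact ⟨p, hp, rfl⟩
  · rw [Set.Finite.mem_toFinset] at hQ
    obtain ⟨p, hp, rfl⟩ := hQ
    exact ⟨p, hp, mem_cell_cellKey ρ hρ p⟩

/-- The cells meeting `D` have total area at most the volume of a thickening of `D`. -/
theorem cell_count_bound {D : Set E2} (hD : IsCompact D) (ρ : ℝ) (hρ : 0 < ρ)
    (𝒬 : Finset (ℤ × ℤ)) (hQ : ∀ Q ∈ 𝒬, ∃ p ∈ D, p ∈ cell ρ Q) :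
    (𝒬.card : ℝ) * ρ ^ 2 ≤ (volume (cthickening (2 * ρ) D)).toReal := by
  have hfin : volume (cthickening (2 * ρ) D) ≠ ⊤ :=
    hD.isBounded.cthickening.measure_lt_top.ne
  refine packing_count 𝒬 (cell ρ) (fun Q _ => measurableSet_cell ρ Q)
    (fun Q _ Q' _ hne => cell_disjoint ρ hρ hne) (ρ ^ 2) (sq_nonneg ρ)
    (fun Q _ => volume_cell ρ hρ.le Q) (cthickening (2 * ρ) D) ?_ _ ENNReal.toReal_nonneg
    (by rw [ENNReal.ofReal_toReal hfin])
  intro Q hQm z hz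
  obtain ⟨p, hpD, hp⟩ := hQ Q hQm
  exact mem_cthickening_of_dist_le z p _ D hpD (by
    rw [dist_eq_norm]; exact cell_diam ρ hρ Q hz hp)

end Crest.Agent.Helper5
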