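import Mathlib
import Crest.Agent.Helper5.ShearFrame

/-!
Analytic facts on a compact set for S0326 (row 211): uniform differentiability of a `C¹` map,
uniform bounds, and the Lipschitz property of the weight `J`.  `helper5`.
-/

set_option autoImplicit false

open Metric

namespace Crest.Agent.Helper5

/-- Uniform differentiability of a `C¹` map on a compact subset of an open set. -/
theorem uniform_diff {D U : Set E2} (hD : IsCompact D) (hU : IsOpen U) (hDU : D ⊆ U)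
    {V : E2 → E2} (hV : ContDiffOn ℝ 1 V U) (ω : ℝ) (hω : 0 < ω) :
    ∃ ρ : ℝ, 0 < ρ ∧ ∀ q ∈ D, ∀ p : E2, ‖p - q‖ ≤ ρ →
      ‖V p - V q - fderiv ℝ V q (p - q)‖ ≤ ω * ‖p - q‖ := by
  obtain ⟨δ0, hδ0, hsub⟩ := hD.exists_cthickening_subset_open hU hDU
  have hcomp : IsCompact (cthickening δ0 D) := hD.cthickening
  have hcont : ContinuousOn (fderiv ℝ V) U := hV.continuousOn_fderiv_of_isOpen hU le_rfl
  have huc : UniformContinuousOn (fderiv ℝ V) (cthickening δ0 D) :=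
    hcomp.uniformContinuousOn_of_continuous (hcont.mono hsub)
  obtain ⟨δ1, hδ1, hδ1'⟩ := Metric.uniformContinuousOn_iff_le.1 huc ω hω
  refine ⟨min δ0 δ1, lt_min hδ0 hδ1, ?_⟩
  intro q hq p hp
  have hball : closedBall q (min δ0 δ1) ⊆ cthickening δ0 D := by
    intro z hz
    exact mem_cthickening_of_dist_le z q δ0 D hq ((mem_closedBall.1 hz).trans (min_le_left _ _))
  have hqD' : q ∈ cthickening δ0 D := self_subset_cthickening D hq
  have hdiff : ∀ z ∈ closedBall q (min δ0 δ1),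
      HasFDerivWithinAt V (fderiv ℝ V z) (closedBall q (min δ0 δ1)) z := by
    intro z hz
    have hzU : z ∈ U := hsub (hball hz)
    have : DifferentiableAt ℝ V z :=
      (hV.differentiableOn one_ne_zero).differentiableAt (hU.mem_nhds hzU)
    exact this.hasFDerivAt.hasFDerivWithinAt
  have hbound : ∀ z ∈ closedBall q (min δ0 δ1), ‖fderiv ℝ V z - fderiv ℝ V q‖ ≤ ω := by
    intro z hz
    have h1 := hδ1' z (hball hz) q hqD' ((mem_closedBall.1 hz).trans (min_le_right _ _))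
    rwa [dist_eq_norm] at h1
  have hpB : p ∈ closedBall q (min δ0 δ1) := by
    rw [mem_closedBall, dist_eq_norm]; exact hp
  have hqB : q ∈ closedBall q (min δ0 δ1) :=
    mem_closedBall_self (le_min hδ0.le hδ1.le)
  exact Convex.norm_image_sub_le_of_norm_hasFDerivWithin_le' hdiff hbound
    (convex_closedBall q _) hqB hpB

/-- A positive continuous function on a compact set is bounded below by a positive constant. -/
theorem exists_pos_lower_bound {X : Type*} [TopologicalSpace X] {K : Set X} (hK : IsCompact K)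
    {f : X → ℝ} (hf : ContinuousOn f K) (hpos : ∀ x ∈ K, 0 < f x) :
    ∃ c : ℝ, 0 < c ∧ ∀ x ∈ K, c ≤ f x := by
  rcases K.eq_empty_or_nonempty with hK0 | hne
  · exact ⟨1, one_pos, by simp [hK0]⟩
  · obtain ⟨x0, hx0, hmin⟩ := hK.exists_isMinOn hne hf
    exact ⟨f x0, hpos x0 hx0, fun x hx => hmin hx⟩

/-- The determinant of the derivative is continuous on the compact set. -/
theorem continuousOn_det_fderiv {D U : Set E2} (hU : IsOpen U) (hDU : D ⊆ U)
    {V : E2 → E2} (hV : ContDiffOn ℝ 1 V U) :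
    ContinuousOn (fun q => LinearMap.det (fderiv ℝ V q).toLinearMap) D := by
  have hcont : ContinuousOn (fderiv ℝ V) D :=
    (hV.continuousOn_fderiv_of_isOpen hU le_rfl).mono hDU
  have hev : ∀ (v : E2) (i : Fin 2), ContinuousOn (fun q => (fderiv ℝ V q v) i) D := by
    intro v i
    have h1 : ContinuousOn (fun q => fderiv ℝ V q v) D := hcont.clm_apply continuousOn_const
    exact (EuclideanSpace.proj i).continuous.comp_continuousOn h1
  have : (fun q => LinearMap.det (fderiv ℝ V q).toLinearMap) = fun q =>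
      (fderiv ℝ V q (fr 1 0 1 0)) 0 * (fderiv ℝ V q (fr 1 0 0 1)) 1 -
        (fderiv ℝ V q (fr 1 0 0 1)) 0 * (fderiv ℝ V q (fr 1 0 1 0)) 1 := by
    funext q
    exact det_e2 _
  rw [this]
  exact ((hev _ 0).mul (hev _ 1)).sub ((hev _ 0).mul (hev _ 1))

/-- The weight `J(g) = (1 + g₀² + h² g₁²)^(-1/2)`. -/
noncomputable def Jw (h : ℝ) (g : E2) : ℝ := 1 / Real.sqrt (1 + (g 0) ^ 2 + h ^ 2 * (g 1) ^ 2)

theorem Jw_pos (h : ℝ) (g : E2) : 0 < Jw h g := by
  unfold Jw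
  have : 0 < 1 + (g 0) ^ 2 + h ^ 2 * (g 1) ^ 2 := by positivity
  positivity

theorem Jw_le_one (h : ℝ) (g : E2) : Jw h g ≤ 1 := by
  unfold Jw
  have h1 : (1 : ℝ) ≤ Real.sqrt (1 + (g 0) ^ 2 + h ^ 2 * (g 1) ^ 2) := by
    calc (1 : ℝ) = Real.sqrt 1 := Real.sqrt_one.symm
      _ ≤ Real.sqrt (1 + (g 0) ^ 2 + h ^ 2 * (g 1) ^ 2) :=
          Real.sqrt_le_sqrt (by nlinarith [sq_nonneg (g 0), sq_nonneg (h * g 1)])
  rw [div_le_one (by linarith)]
  exact h1

/-- `J` is Lipschitz with constant `1 + h`. -/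
theorem Jw_le_add (h : ℝ) (hh : 0 < h) (g g' : E2) :
    Jw h g ≤ Jw h g' + (1 + h) * ‖g - g'‖ := by
  obtain ⟨N, hN⟩ : ∃ N : ℝ, N = Real.sqrt (1 + (g 0) ^ 2 + h ^ 2 * (g 1) ^ 2) := ⟨_, rfl⟩
  obtain ⟨N', hN'⟩ : ∃ N' : ℝ, N' = Real.sqrt (1 + (g' 0) ^ 2 + h ^ 2 * (g' 1) ^ 2) := ⟨_, rfl⟩
  have hN2 : N ^ 2 = 1 + (g 0) ^ 2 + h ^ 2 * (g 1) ^ 2 := by
    rw [hN]; exact Real.sq_sqrt (by positivity)
  have hN'2 : N' ^ 2 = 1 + (g' 0) ^ 2 + h ^ 2 * (g' 1) ^ 2 := by
    rw [hN']; exact Real.sq_sqrt (by positivity)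
  have hN0 : 0 ≤ N := by rw [hN]; exact Real.sqrt_nonneg _
  have hN'0 : 0 ≤ N' := by rw [hN']; exact Real.sqrt_nonneg _
  have hN1 : 1 ≤ N := by nlinarith [sq_nonneg (g 0), sq_nonneg (h * g 1)]
  have hN'1 : 1 ≤ N' := by nlinarith [sq_nonneg (g' 0), sq_nonneg (h * g' 1)]
  -- bounds of the coordinates by the N's
  have a0 : |g 0| ≤ N := abs_le_of_sq_le_sq (by nlinarith [sq_nonneg (h * g 1)]) hN0
  have a0' : |g' 0| ≤ N' := abs_le_of_sq_le_sq (by nlinarith [sq_nonneg (h * g' 1)]) hN'0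
  have a1 : |h * g 1| ≤ N := abs_le_of_sq_le_sq (by nlinarith [sq_nonneg (g 0)]) hN0
  have a1' : |h * g' 1| ≤ N' := abs_le_of_sq_le_sq (by nlinarith [sq_nonneg (g' 0)]) hN'0
  obtain ⟨d0, hd0⟩ : ∃ d0 : ℝ, d0 = |g 0 - g' 0| := ⟨_, rfl⟩
  obtain ⟨d1, hd1⟩ : ∃ d1 : ℝ, d1 = |g 1 - g' 1| := ⟨_, rfl⟩
  have hd0n : d0 ≤ ‖g - g'‖ := by
    rw [hd0]; exact abs_coord_le_norm (g - g') 0
  have hd1n : d1 ≤ ‖g - g'‖ := by
    rw [hd1]; exact abs_coord_le_norm (g - g') 1
  have hd00 : 0 ≤ d0 := by rw [hd0]; exact abs_nonneg _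
  have hd10 : 0 ≤ d1 := by rw [hd1]; exact abs_nonneg _
  -- |N'^2 - N^2| ≤ (d0 + h d1) (N + N')
  have key : N' ^ 2 - N ^ 2 ≤ (d0 + h * d1) * (N + N') := by
    have e : N' ^ 2 - N ^ 2 = (g' 0 - g 0) * (g' 0 + g 0) +
        (h * g' 1 - h * g 1) * (h * g' 1 + h * g 1) := by
      rw [hN2, hN'2]; ring
    have b1 : (g' 0 - g 0) * (g' 0 + g 0) ≤ d0 * (N + N') := by
      have h1 : |g' 0 - g 0| = d0 := by rw [hd0, abs_sub_comm]
      have h2 : |g' 0 + g 0| ≤ N + N' := by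
        calc |g' 0 + g 0| ≤ |g' 0| + |g 0| := abs_add_le _ _
          _ ≤ N' + N := add_le_add a0' a0
          _ = N + N' := add_comm _ _
      calc (g' 0 - g 0) * (g' 0 + g 0) ≤ |(g' 0 - g 0) * (g' 0 + g 0)| := le_abs_self _
        _ = |g' 0 - g 0| * |g' 0 + g 0| := abs_mul _ _
        _ ≤ d0 * (N + N') := by
            rw [h1]; exact mul_le_mul_of_nonneg_left h2 hd00
    have b2 : (h * g' 1 - h * g 1) * (h * g' 1 + h * g 1) ≤ h * d1 * (N + N') := by
      have h1 : |h * g' 1 - h * g 1| = h * d1 := by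
        rw [hd1, ← mul_sub, abs_mul, abs_of_pos hh, abs_sub_comm]
      have h2 : |h * g' 1 + h * g 1| ≤ N + N' := by
        calc |h * g' 1 + h * g 1| ≤ |h * g' 1| + |h * g 1| := abs_add_le _ _
          _ ≤ N' + N := add_le_add a1' a1
          _ = N + N' := add_comm _ _
      calc (h * g' 1 - h * g 1) * (h * g' 1 + h * g 1)
          ≤ |(h * g' 1 - h * g 1) * (h * g' 1 + h * g 1)| := le_abs_self _
        _ = |h * g' 1 - h * g 1| * |h * g' 1 + h * g 1| := abs_mul _ _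
        _ ≤ h * d1 * (N + N') := by
            rw [h1]; exact mul_le_mul_of_nonneg_left h2 (by positivity)
    rw [e]
    linarith
  have hdiff : N' - N ≤ d0 + h * d1 := by
    have hsum : 0 < N + N' := by linarith
    have : (N' - N) * (N + N') ≤ (d0 + h * d1) * (N + N') := by
      have e2 : (N' - N) * (N + N') = N' ^ 2 - N ^ 2 := by ring
      rw [e2]; exact key
    exact le_of_mul_le_mul_right this hsum
  have hdn : d0 + h * d1 ≤ (1 + h) * ‖g - g'‖ := by
    nlinarith [norm_nonneg (g - g')]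
  have hJ : Jw h g = 1 / N := by rw [Jw, hN]
  have hJ' : Jw h g' = 1 / N' := by rw [Jw, hN']
  rw [hJ, hJ']
  have hNpos : 0 < N := by linarith
  have hN'pos : 0 < N' := by linarith
  have e3 : 1 / N - 1 / N' = (N' - N) / (N * N') := by
    field_simp
  have h4 : (N' - N) / (N * N') ≤ d0 + h * d1 := by
    have hNN : 1 ≤ N * N' := by nlinarith
    have hnn : 0 ≤ d0 + h * d1 := by positivity
    rw [div_le_iff₀ (by positivity)]
    calc N' - N ≤ d0 + h * d1 := hdiff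
      _ ≤ (d0 + h * d1) * (N * N') := by nlinarith
  linarith

end Crest.Agent.Helper5
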