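import Mathlib
import Crest.Agent.Helper5.ShearAnalysis
import Crest.Agent.Helper5.ShearMeasure
import Crest.Agent.Helper6.CellSum
import Crest.Agent.Helper1.CellPacking

/-!
Assembly of the sheared-square cover of a ruled set (S0326, row 211).  `helper5`.
-/

set_option autoImplicit false

open MeasureTheory Metric

namespace Crest.Agent.Helper5
open Crest.Agent.Helper6 (cell_sum_bound)
open Crest.Agent.Helper1 (cell_packing)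

/-- The volume of a small closed thickening of a compact set is close to its volume. -/
theorem exists_thickening_bound {D : Set E2} (hD : IsCompact D) (ε3 : ℝ) (hε3 : 0 < ε3) :
    ∃ δ : ℝ, 0 < δ ∧ ∀ r : ℝ, 0 ≤ r → r ≤ δ →
      (volume (cthickening r D)).toReal ≤ (volume D).toReal + ε3 := by
  have hfin : volume D ≠ ⊤ := hD.measure_lt_top.ne
  have ht := tendsto_measure_cthickening_of_isCompact (μ := (volume : Measure E2)) hD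
  have hlt : volume D < volume D + ENNReal.ofReal ε3 :=
    ENNReal.lt_add_right hfin (by simpa using hε3)
  have hev := (tendsto_order.1 ht).2 _ hlt
  obtain ⟨δ, hδ, hδ'⟩ := Metric.eventually_nhds_iff.1 hev
  refine ⟨δ / 2, by positivity, fun r hr0 hr => ?_⟩
  have h1 : volume (cthickening r D) < volume D + ENNReal.ofReal ε3 := by
    apply hδ'
    rw [Real.dist_eq, sub_zero, abs_of_nonneg hr0]
    linarith
  have h2 := ENNReal.toReal_mono (by simp [hfin]) h1.le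
  rwa [ENNReal.toReal_add hfin ENNReal.ofReal_ne_top, ENNReal.toReal_ofReal hε3.le] at h2

/-- Uniform continuity of `V` on the compact set, in norm form. -/
theorem uniform_cont_V {D U : Set E2} (hD : IsCompact D) (hDU : D ⊆ U) {V : E2 → E2}
    (hV : ContDiffOn ℝ 1 V U) (δ : ℝ) (hδ : 0 < δ) :
    ∃ ρ : ℝ, 0 < ρ ∧ ∀ q ∈ D, ∀ p ∈ D, ‖p - q‖ ≤ ρ → ‖V q - V p‖ ≤ δ := by
  have huc : UniformContinuousOn V D :=
    hD.uniformContinuousOn_of_continuous (hV.continuousOn.mono hDU)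
  obtain ⟨ρ, hρ, h⟩ := Metric.uniformContinuousOn_iff_le.1 huc δ hδ
  refine ⟨ρ, hρ, fun q hq p hp hpq => ?_⟩
  have := h q hq p hp (by rw [dist_eq_norm, norm_sub_rev]; exact hpq)
  rwa [dist_eq_norm] at this

theorem continuous_Jw (h : ℝ) : Continuous (Jw h) := by
  unfold Jw
  have h0 : Continuous (fun g : E2 => g 0) := (EuclideanSpace.proj (0 : Fin 2)).continuous
  have h1 : Continuous (fun g : E2 => g 1) := (EuclideanSpace.proj (1 : Fin 2)).continuous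
  refine continuous_const.div (Real.continuous_sqrt.comp
    ((continuous_const.add (h0.pow 2)).add (continuous_const.mul (h1.pow 2)))) (fun g => ?_)
  have : 0 < 1 + (g 0) ^ 2 + h ^ 2 * (g 1) ^ 2 := by positivity
  exact (Real.sqrt_pos.2 this).ne'

/-- The family of sheared lattice squares attached to one cell. -/
theorem cell_family {D : Set E2} {V : E2 → E2} (M : E2 →L[ℝ] E2) (x y b c : ℝ)
    (hxy : x ^ 2 + y ^ 2 = 1) (hM : ∀ u v : ℝ, M (fr x y u v) = fr x y (b * v) (c * u))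
    (L r η K κ ρ : ℝ) (hr : 0 < r) (hη : 0 ≤ η) (hbc0 : 0 ≤ b * c) (hκ : 0 < κ)
    (hbc1 : κ ≤ 1 - L ^ 2 * (b * c)) (hbK : |b| ≤ K) (hcK : |c| ≤ K) (hρ : 0 < ρ)
    (q : E2) (Q : ℤ × ℤ) (hq : q ∈ cell ρ Q)
    (hlin : ∀ p ∈ D, p ∈ cell ρ Q → ∀ s : ℝ, |s| ≤ L →
      |s| * ‖V p - V q - M (p - q)‖ ≤ η * r / 2) :
    ∃ I : Finset (ℤ × ℤ),
      (∀ p ∈ D, p ∈ cell ρ Q → ∀ s : ℝ, |s| ≤ L → ∃ ij ∈ I,
        ∃ t ∈ Set.Icc (0 : ℝ) 1, ∃ t' ∈ Set.Icc (0 : ℝ) 1,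
          p + s • V p = sqC q x y r η ij.1 ij.2 + t • sqA x y r η + t' • sqB x y r η
            + s • sqG (V q) x y b c r ij.1 ij.2) ∧
      (∀ ij ∈ I, ∃ p, p ∈ cell ρ Q ∧ ‖p - sqP q x y r ij.1 ij.2‖ ≤ (1 + L * K) / κ * r) := by
  obtain ⟨C, hCdef⟩ : ∃ C : ℝ, C = (1 + L * K) / κ := ⟨_, rfl⟩
  rw [← hCdef]
  have hfin : {ij : ℤ × ℤ | ∃ p, p ∈ cell ρ Q ∧ ‖p - sqP q x y r ij.1 ij.2‖ ≤ C * r}.Finite := by
    obtain ⟨B, hB⟩ : ∃ B : ℝ, B = C + 2 * ρ / r := ⟨_, rfl⟩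
    refine Set.Finite.subset ((Set.finite_Icc ⌈-B⌉ ⌊B⌋).prod (Set.finite_Icc ⌈-B⌉ ⌊B⌋)) ?_
    rintro ⟨i, j⟩ ⟨p, hp, hpn⟩
    have h1 : ‖sqP q x y r i j - q‖ ≤ C * r + 2 * ρ := by
      calc ‖sqP q x y r i j - q‖ = ‖(p - q) - (p - sqP q x y r i j)‖ := by congr 1; abel
        _ ≤ ‖p - q‖ + ‖p - sqP q x y r i j‖ := norm_sub_le _ _
        _ ≤ 2 * ρ + C * r := add_le_add (cell_diam ρ hρ Q hp hq) hpn
        _ = C * r + 2 * ρ := add_comm _ _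
    have e2 : sqP q x y r i j - q = fr x y (r * i) (r * j) := by rw [sqP]; abel
    rw [e2, norm_fr x y _ _ hxy] at h1
    have hB0 : 0 ≤ C * r + 2 * ρ := (Real.sqrt_nonneg _).trans h1
    have h2 : (r * (i : ℝ)) ^ 2 + (r * (j : ℝ)) ^ 2 ≤ (C * r + 2 * ρ) ^ 2 :=
      (Real.sqrt_le_left hB0).1 h1
    have hBr : C * r + 2 * ρ = r * B := by
      rw [hB]; field_simp
    have hgen : ∀ m : ℤ, (r * (m : ℝ)) ^ 2 ≤ (C * r + 2 * ρ) ^ 2 → m ∈ Set.Icc ⌈-B⌉ ⌊B⌋ := by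
      intro m hm
      have h3 : |r * (m : ℝ)| ≤ C * r + 2 * ρ := abs_le_of_sq_le_sq hm hB0
      rw [hBr, abs_mul, abs_of_pos hr] at h3
      have h4 : |(m : ℝ)| ≤ B := le_of_mul_le_mul_left h3 hr
      have h5 := abs_le.1 h4
      exact ⟨Int.ceil_le.2 h5.1, Int.le_floor.2 h5.2⟩
    exact ⟨hgen i (by nlinarith [sq_nonneg (r * (j : ℝ))]),
      hgen j (by nlinarith [sq_nonneg (r * (i : ℝ))])⟩
  refine ⟨hfin.toFinset, fun p hpD hp s hs => ?_, fun ij hij => ?_⟩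
  · obtain ⟨i, j, hcov, hnear⟩ := local_cover_vec M x y b c hxy hM L r η K κ hr hη hbc0 hκ hbc1
      hbK hcK q (V q) p (V p) s hs (hlin p hpD hp s hs)
    rw [← hCdef] at hnear
    exact ⟨(i, j), (Set.Finite.mem_toFinset _).2 ⟨p, hp, hnear⟩, hcov⟩
  · have h1 := (Set.Finite.mem_toFinset hfin).1 hij
    exact h1

/-- Cost of the family attached to one cell. -/
theorem cell_cost (h : ℝ) (hh : 0 < h) (x y b c : ℝ) (hxy : x ^ 2 + y ^ 2 = 1)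
    (r η K ρ C δ : ℝ) (hr : 0 < r) (hη : 0 ≤ η) (hρ : 0 < ρ) (hC : 0 ≤ C)
    (hbK : |b| ≤ K) (hcK : |c| ≤ K) (q g0 : E2) (Q : ℤ × ℤ) (hq : q ∈ cell ρ Q)
    (I : Finset (ℤ × ℤ))
    (hI : ∀ ij ∈ I, ∃ p, p ∈ cell ρ Q ∧ ‖p - sqP q x y r ij.1 ij.2‖ ≤ C * r)
    (hsmall : (1 + h) * (K * (C * r + 2 * ρ)) ≤ δ) :
    ∑ ij ∈ I, ‖sqA x y r η‖ ^ 2 / Real.sqrt (1 + (sqG g0 x y b c r ij.1 ij.2 0) ^ 2
        + h ^ 2 * (sqG g0 x y b c r ij.1 ij.2 1) ^ 2)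
      ≤ (1 + η) ^ 2 * (ρ + 2 * (C + 2) * r) ^ 2 * (Jw h g0 + δ) := by
  have hK : 0 ≤ K := (abs_nonneg b).trans hbK
  have hterm : ∀ ij ∈ I, ‖sqA x y r η‖ ^ 2 / Real.sqrt (1 + (sqG g0 x y b c r ij.1 ij.2 0) ^ 2
        + h ^ 2 * (sqG g0 x y b c r ij.1 ij.2 1) ^ 2) ≤ (r * (1 + η)) ^ 2 * (Jw h g0 + δ) := by
    intro ij hij
    obtain ⟨p, hp, hpn⟩ := hI ij hij
    rw [norm_sqA x y r η hxy hr hη, div_eq_mul_one_div]
    have hJ : 1 / Real.sqrt (1 + (sqG g0 x y b c r ij.1 ij.2 0) ^ 2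
        + h ^ 2 * (sqG g0 x y b c r ij.1 ij.2 1) ^ 2) = Jw h (sqG g0 x y b c r ij.1 ij.2) := rfl
    rw [hJ]
    apply mul_le_mul_of_nonneg_left _ (sq_nonneg _)
    have h1 := Jw_le_add h hh (sqG g0 x y b c r ij.1 ij.2) g0
    have h2 := norm_sqG_sub g0 q x y b c r K hxy hbK hcK ij.1 ij.2
    have h3 : ‖sqP q x y r ij.1 ij.2 - q‖ ≤ C * r + 2 * ρ := by
      calc ‖sqP q x y r ij.1 ij.2 - q‖ = ‖(p - q) - (p - sqP q x y r ij.1 ij.2)‖ := by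
            congr 1; abel
        _ ≤ ‖p - q‖ + ‖p - sqP q x y r ij.1 ij.2‖ := norm_sub_le _ _
        _ ≤ 2 * ρ + C * r := add_le_add (cell_diam ρ hρ Q hp hq) hpn
        _ = C * r + 2 * ρ := add_comm _ _
    have h4 : (1 + h) * ‖sqG g0 x y b c r ij.1 ij.2 - g0‖ ≤ δ := by
      refine le_trans ?_ hsmall
      apply mul_le_mul_of_nonneg_left _ (by positivity)
      exact h2.trans (mul_le_mul_of_nonneg_left h3 hK)
    linarith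
  have hpack := cell_packing q x y hxy r ρ C hr hρ hC Q I hI
  have hJ0 : 0 ≤ Jw h g0 + δ := by
    have h1 := Jw_pos h g0
    have h2 : 0 ≤ δ := le_trans (by positivity) hsmall
    linarith
  calc ∑ ij ∈ I, ‖sqA x y r η‖ ^ 2 / Real.sqrt (1 + (sqG g0 x y b c r ij.1 ij.2 0) ^ 2
        + h ^ 2 * (sqG g0 x y b c r ij.1 ij.2 1) ^ 2)
      ≤ ∑ ij ∈ I, (r * (1 + η)) ^ 2 * (Jw h g0 + δ) := Finset.sum_le_sum hterm
    _ = (1 + η) ^ 2 * ((I.card : ℝ) * r ^ 2) * (Jw h g0 + δ) := by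
        rw [Finset.sum_const, nsmul_eq_mul]; ring
    _ ≤ (1 + η) ^ 2 * (ρ + 2 * (C + 2) * r) ^ 2 * (Jw h g0 + δ) := by
        apply mul_le_mul_of_nonneg_right _ hJ0
        exact mul_le_mul_of_nonneg_left hpack (sq_nonneg _)

/-- Re-indexing a finite family by `Fin k`. -/
theorem exists_fin_family {ι : Type*} (T : Finset ι) (c a b g : ι → E2) (h : ℝ)
    (E : Set (ℝ × E2)) (bound : ℝ)
    (hab : ∀ t ∈ T, a t ≠ 0 ∧ ‖b t‖ = ‖a t‖ ∧ inner ℝ (a t) (b t) = 0)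
    (hcov : ∀ z ∈ E, ∃ t ∈ T, ∃ x ∈ Set.Icc (0 : ℝ) 1, ∃ y ∈ Set.Icc (0 : ℝ) 1,
      z.2 = c t + x • a t + y • b t + z.1 • g t)
    (hcost : ∑ t ∈ T, ‖a t‖ ^ 2 / Real.sqrt (1 + (g t 0) ^ 2 + h ^ 2 * (g t 1) ^ 2) ≤ bound) :
    ∃ (k : ℕ) (c' a' b' g' : Fin k → E2),
      (∀ i, a' i ≠ 0 ∧ ‖b' i‖ = ‖a' i‖ ∧ inner ℝ (a' i) (b' i) = 0) ∧
      E ⊆ ⋃ i, {z : ℝ × E2 | ∃ x ∈ Set.Icc (0 : ℝ) 1, ∃ y ∈ Set.Icc (0 : ℝ) 1,
          z.2 = c' i + x • a' i + y • b' i + z.1 • g' i} ∧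
      ∑ i, ‖a' i‖ ^ 2 / Real.sqrt (1 + (g' i 0) ^ 2 + h ^ 2 * (g' i 1) ^ 2) ≤ bound := by
  classical
  refine ⟨T.card, fun i => c (T.equivFin.symm i).1, fun i => a (T.equivFin.symm i).1,
    fun i => b (T.equivFin.symm i).1, fun i => g (T.equivFin.symm i).1,
    fun i => hab _ (T.equivFin.symm i).2, ?_, ?_⟩
  · intro z hz
    obtain ⟨t, ht, x, hx, y, hy, hzz⟩ := hcov z hz
    refine Set.mem_iUnion.2 ⟨T.equivFin ⟨t, ht⟩, x, hx, y, hy, ?_⟩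
    simp only [Equiv.symm_apply_apply]
    exact hzz
  · have h1 : ∑ i, ‖a (T.equivFin.symm i).1‖ ^ 2 / Real.sqrt (1 + (g (T.equivFin.symm i).1 0) ^ 2
          + h ^ 2 * (g (T.equivFin.symm i).1 1) ^ 2)
        = ∑ t ∈ T, ‖a t‖ ^ 2 / Real.sqrt (1 + (g t 0) ^ 2 + h ^ 2 * (g t 1) ^ 2) := by
      rw [← Finset.sum_coe_sort T
        (fun t => ‖a t‖ ^ 2 / Real.sqrt (1 + (g t 0) ^ 2 + h ^ 2 * (g t 1) ^ 2))]
      exact Equiv.sum_comp T.equivFin.symm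
        (fun t : T => ‖a t.1‖ ^ 2 / Real.sqrt (1 + (g t.1 0) ^ 2 + h ^ 2 * (g t.1 1) ^ 2))
    rw [h1]; exact hcost

/-- **Core assembly**: for admissible scales `ρ` (cells), `r` (lattice squares), `η`, `δ`, the
ruled set is covered by finitely many sheared squares with controlled cost. -/
theorem shear_core {D U : Set E2} (hD : IsCompact D) (hU : IsOpen U) (hDU : D ⊆ U)
    {V : E2 → E2} (hV : ContDiffOn ℝ 1 V U) (L h : ℝ) (hh : 0 < h)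
    (htr : ∀ p ∈ D, LinearMap.trace ℝ E2 (fderiv ℝ V p).toLinearMap = 0)
    (K κ : ℝ) (hκ : 0 < κ) (hK : ∀ q ∈ D, ‖fderiv ℝ V q‖ ≤ K) (hK0 : 0 ≤ K) (hL0 : 0 ≤ L)
    (hdet0 : ∀ q ∈ D, LinearMap.det (fderiv ℝ V q).toLinearMap ≤ 0)
    (hdet1 : ∀ q ∈ D, κ ≤ 1 + L ^ 2 * LinearMap.det (fderiv ℝ V q).toLinearMap)
    (ρ r η δ : ℝ) (hρ : 0 < ρ) (hr : 0 < r) (hη : 0 ≤ η) (hδ : 0 ≤ δ)
    (hlin : ∀ q ∈ D, ∀ p ∈ D, ‖p - q‖ ≤ 2 * ρ →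
      L * ‖V p - V q - fderiv ℝ V q (p - q)‖ ≤ η * r / 2)
    (hJ1 : (1 + h) * (K * ((1 + L * K) / κ * r + 2 * ρ)) ≤ δ)
    (hJ2 : ∀ q ∈ D, ∀ p ∈ D, ‖p - q‖ ≤ 2 * ρ → Jw h (V q) ≤ Jw h (V p) + δ) :
    ∃ (k : ℕ) (c a b g : Fin k → E2),
      (∀ i, a i ≠ 0 ∧ ‖b i‖ = ‖a i‖ ∧ inner ℝ (a i) (b i) = 0) ∧
      {z : ℝ × E2 | ∃ p ∈ D, |z.1| ≤ L ∧ z.2 = p + z.1 • V p} ⊆
        ⋃ i, {z : ℝ × E2 | ∃ x ∈ Set.Icc (0 : ℝ) 1, ∃ y ∈ Set.Icc (0 : ℝ) 1,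
          z.2 = c i + x • a i + y • b i + z.1 • g i} ∧
      ∑ i, ‖a i‖ ^ 2 / Real.sqrt (1 + (g i 0) ^ 2 + h ^ 2 * (g i 1) ^ 2) ≤
        (1 + η) ^ 2 * (ρ + 2 * ((1 + L * K) / κ + 2) * r) ^ 2 / ρ ^ 2 *
          ((∫ p in D, Jw h (V p)) + δ * (volume D).toReal
            + ((volume (cthickening (2 * ρ) D)).toReal - (volume D).toReal)
            + δ * (volume (cthickening (2 * ρ) D)).toReal) := by
  classical
  obtain ⟨𝒬, hcov, hQ⟩ := exists_cells hD ρ hρ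
  choose! qf hqf using hQ
  have hfr : ∀ q ∈ D, ∃ x y b c : ℝ, x ^ 2 + y ^ 2 = 1 ∧
      (∀ u v : ℝ, fderiv ℝ V q (fr x y u v) = fr x y (b * v) (c * u)) ∧
      b * c = -LinearMap.det (fderiv ℝ V q).toLinearMap ∧ |b| ≤ ‖fderiv ℝ V q‖ ∧
      |c| ≤ ‖fderiv ℝ V q‖ :=
    fun q hq => exists_frame _ (htr q hq)
  choose! xf yf bf cf hfr' using hfr
  obtain ⟨C, hCdef⟩ : ∃ C : ℝ, C = (1 + L * K) / κ := ⟨_, rfl⟩
  rw [← hCdef] at hJ1 ⊢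
  have hC0 : 0 ≤ C := by rw [hCdef]; positivity
  -- per-cell families
  have hfam : ∀ Q ∈ 𝒬, ∃ I : Finset (ℤ × ℤ),
      (∀ p ∈ D, p ∈ cell ρ Q → ∀ s : ℝ, |s| ≤ L → ∃ ij ∈ I,
        ∃ t ∈ Set.Icc (0 : ℝ) 1, ∃ t' ∈ Set.Icc (0 : ℝ) 1,
          p + s • V p = sqC (qf Q) (xf (qf Q)) (yf (qf Q)) r η ij.1 ij.2
            + t • sqA (xf (qf Q)) (yf (qf Q)) r η + t' • sqB (xf (qf Q)) (yf (qf Q)) r η
            + s • sqG (V (qf Q)) (xf (qf Q)) (yf (qf Q)) (bf (qf Q)) (cf (qf Q)) r ij.1 ij.2) ∧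
      (∀ ij ∈ I, ∃ p, p ∈ cell ρ Q ∧
        ‖p - sqP (qf Q) (xf (qf Q)) (yf (qf Q)) r ij.1 ij.2‖ ≤ C * r) := by
    intro Q hQm
    obtain ⟨hqD, hqc⟩ := hqf Q hQm
    obtain ⟨hxy, hM, hbc, hb, hc⟩ := hfr' (qf Q) hqD
    rw [hCdef]
    refine cell_family (D := D) (V := V) (fderiv ℝ V (qf Q)) _ _ _ _ hxy hM L r η K κ ρ hr hη
      ?_ hκ ?_ (hb.trans (hK _ hqD)) (hc.trans (hK _ hqD)) hρ (qf Q) Q hqc ?_
    · rw [hbc]; linarith [hdet0 _ hqD]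
    · rw [hbc]; linarith [hdet1 _ hqD]
    · intro p hpD hp s hs
      have h1 := hlin (qf Q) hqD p hpD (cell_diam ρ hρ Q hp hqc)
      exact (mul_le_mul_of_nonneg_right hs (norm_nonneg _)).trans h1
  choose! If hIf using hfam
  refine exists_fin_family (𝒬.sigma If)
    (fun t => sqC (qf t.1) (xf (qf t.1)) (yf (qf t.1)) r η t.2.1 t.2.2)
    (fun t => sqA (xf (qf t.1)) (yf (qf t.1)) r η)
    (fun t => sqB (xf (qf t.1)) (yf (qf t.1)) r η)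
    (fun t => sqG (V (qf t.1)) (xf (qf t.1)) (yf (qf t.1)) (bf (qf t.1)) (cf (qf t.1)) r
      t.2.1 t.2.2) h _ _ ?_ ?_ ?_
  · intro t ht
    obtain ⟨hQm, _⟩ := Finset.mem_sigma.1 ht
    obtain ⟨hqD, hqc⟩ := hqf _ hQm
    obtain ⟨hxy, -⟩ := hfr' _ hqD
    exact ⟨sqA_ne_zero _ _ r η hxy hr hη,
      by rw [norm_sqA _ _ r η hxy hr hη, norm_sqB _ _ r η hxy hr hη], inner_sqA_sqB _ _ _ _⟩
  · rintro ⟨s, ξ⟩ ⟨p, hpD, hs, hz⟩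
    simp only at hs hz
    have hQm := hcov p hpD
    obtain ⟨ij, hij, t, ht, t', ht', heq⟩ :=
      (hIf _ hQm).1 p hpD (mem_cell_cellKey ρ hρ p) s hs
    exact ⟨⟨cellKey ρ p, ij⟩, Finset.mem_sigma.2 ⟨hQm, hij⟩, t, ht, t', ht',
      by rw [hz]; exact heq⟩
  · rw [Finset.sum_sigma]
    have hcell : ∀ Q ∈ 𝒬, ∑ ij ∈ If Q, ‖sqA (xf (qf Q)) (yf (qf Q)) r η‖ ^ 2 /
          Real.sqrt (1 + (sqG (V (qf Q)) (xf (qf Q)) (yf (qf Q)) (bf (qf Q)) (cf (qf Q)) r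
            ij.1 ij.2 0) ^ 2 + h ^ 2 * (sqG (V (qf Q)) (xf (qf Q)) (yf (qf Q)) (bf (qf Q))
            (cf (qf Q)) r ij.1 ij.2 1) ^ 2)
        ≤ (1 + η) ^ 2 * (ρ + 2 * (C + 2) * r) ^ 2 * (Jw h (V (qf Q)) + δ) := by
      intro Q hQm
      obtain ⟨hqD, hqc⟩ := hqf Q hQm
      obtain ⟨hxy, hM, hbc, hb, hc⟩ := hfr' (qf Q) hqD
      exact cell_cost h hh _ _ _ _ hxy r η K ρ C δ hr hη hρ hC0 (hb.trans (hK _ hqD))
        (hc.trans (hK _ hqD)) (qf Q) (V (qf Q)) Q hqc (If Q) (hIf Q hQm).2 hJ1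
    refine (Finset.sum_le_sum hcell).trans ?_
    have hcontJ : ContinuousOn (fun p => Jw h (V p)) D :=
      (continuous_Jw h).comp_continuousOn (hV.continuousOn.mono hDU)
    have hsum := cell_sum_bound hD hρ 𝒬 hcov (fun Q hQm => ⟨qf Q, hqf Q hQm⟩)
      (fun p => Jw h (V p)) hcontJ (fun Q => Jw h (V (qf Q))) δ hδ
      (fun Q _ => (Jw_pos _ _).le) (fun Q _ => Jw_le_one _ _)
      (fun Q hQm p hpD hp => hJ2 _ (hqf Q hQm).1 p hpD (cell_diam ρ hρ Q hp (hqf Q hQm).2))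
    have hcount := cell_count_bound hD ρ hρ 𝒬 (fun Q hQm => ⟨qf Q, hqf Q hQm⟩)
    obtain ⟨SJ, hSJ⟩ : ∃ SJ : ℝ, SJ = ∑ Q ∈ 𝒬, Jw h (V (qf Q)) := ⟨_, rfl⟩
    obtain ⟨A, hA⟩ : ∃ A : ℝ, A = (1 + η) ^ 2 * (ρ + 2 * (C + 2) * r) ^ 2 := ⟨_, rfl⟩
    have hA0 : 0 ≤ A := by rw [hA]; positivity
    have eL : ∑ Q ∈ 𝒬, (1 + η) ^ 2 * (ρ + 2 * (C + 2) * r) ^ 2 * (Jw h (V (qf Q)) + δ)
        = A / ρ ^ 2 * (ρ ^ 2 * SJ + δ * ((𝒬.card : ℝ) * ρ ^ 2)) := by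
      rw [← Finset.mul_sum, Finset.sum_add_distrib, Finset.sum_const, nsmul_eq_mul, ← hSJ, ← hA]
      field_simp
    have eR : ∑ Q ∈ 𝒬, ρ ^ 2 * Jw h (V (qf Q)) = ρ ^ 2 * SJ := by
      rw [hSJ, Finset.mul_sum]
    rw [eL, ← hA]
    rw [eR] at hsum
    apply mul_le_mul_of_nonneg_left _ (by positivity)
    have h3 := mul_le_mul_of_nonneg_left hcount hδ
    linarith

theorem theta_bound (τ : ℝ) (hτ0 : 0 ≤ τ) (hτ1 : τ ≤ 1) : (1 + τ / 8) ^ 4 ≤ 1 + τ := by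
  have ht2 : τ * τ ≤ τ * 1 := mul_le_mul_of_nonneg_left hτ1 hτ0
  have h1 : (1 + τ / 8) ^ 2 ≤ 1 + 3 * (τ / 8) := by nlinarith
  have h2 : (1 + 3 * (τ / 8)) ^ 2 ≤ 1 + τ := by nlinarith
  have h3 : (1 + τ / 8) ^ 4 = ((1 + τ / 8) ^ 2) ^ 2 := by ring
  rw [h3]
  exact le_trans (pow_le_pow_left₀ (by positivity) h1 2) h2

theorem final_numeric (A0 vD vT δ τ ε : ℝ) (hA0 : 0 ≤ A0) (hvD : 0 ≤ vD) (hδ0 : 0 ≤ δ)
    (hδ1 : δ ≤ 1) (hτ0 : 0 ≤ τ) (hτ1 : τ ≤ 1) (hvT : vT ≤ vD + δ)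
    (hδv : δ * (vD + 1) ≤ ε / 8) (hτA : τ * A0 ≤ ε / 2) :
    (1 + τ / 8) ^ 4 * (A0 + δ * vD + (vT - vD) + δ * vT) ≤ A0 + ε := by
  have hΘ := theta_bound τ hτ0 hτ1
  have hbr : A0 + δ * vD + (vT - vD) + δ * vT ≤ A0 + 2 * δ * (vD + 1) := by
    have h1 : δ * vT ≤ δ * (vD + δ) := mul_le_mul_of_nonneg_left hvT hδ0
    have h2 : δ * δ ≤ δ * 1 := mul_le_mul_of_nonneg_left hδ1 hδ0
    nlinarith
  have hbr0 : 0 ≤ A0 + 2 * δ * (vD + 1) := by positivity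
  have hΘ0 : 0 ≤ (1 + τ / 8) ^ 4 := by positivity
  have h5 : 0 ≤ τ * (δ * (vD + 1)) := by positivity
  have h6 : τ * (δ * (vD + 1)) ≤ 1 * (δ * (vD + 1)) :=
    mul_le_mul_of_nonneg_right hτ1 (by positivity)
  calc (1 + τ / 8) ^ 4 * (A0 + δ * vD + (vT - vD) + δ * vT)
      ≤ (1 + τ / 8) ^ 4 * (A0 + 2 * δ * (vD + 1)) := mul_le_mul_of_nonneg_left hbr hΘ0
    _ ≤ (1 + τ) * (A0 + 2 * δ * (vD + 1)) := mul_le_mul_of_nonneg_right hΘ hbr0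
    _ = A0 + τ * A0 + 2 * (δ * (vD + 1)) + 2 * (τ * (δ * (vD + 1))) := by ring
    _ ≤ A0 + ε := by linarith

/-- **Main theorem** (S0326 with the weight written as `Jw`). -/
theorem shear_main
    (D : Set E2) (hD : IsCompact D) (V : E2 → E2) (U : Set E2)
    (hU : IsOpen U) (hDU : D ⊆ U) (hV : ContDiffOn ℝ 1 V U) (L h : ℝ) (hL : 0 < L) (hh : 0 < h)
    (htr : ∀ p ∈ D, LinearMap.trace ℝ E2 (fderiv ℝ V p).toLinearMap = 0)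
    (hdet : ∀ p ∈ D, -(L ^ 2)⁻¹ < LinearMap.det (fderiv ℝ V p).toLinearMap ∧
      LinearMap.det (fderiv ℝ V p).toLinearMap ≤ 0)
    (ε : ℝ) (hε : 0 < ε) :
    ∃ (k : ℕ) (c a b g : Fin k → E2),
      (∀ i, a i ≠ 0 ∧ ‖b i‖ = ‖a i‖ ∧ inner ℝ (a i) (b i) = 0) ∧
      {z : ℝ × E2 | ∃ p ∈ D, abs z.1 ≤ L ∧ z.2 = p + z.1 • V p} ⊆
        ⋃ i, {z : ℝ × E2 | ∃ x ∈ Set.Icc (0 : ℝ) 1, ∃ y ∈ Set.Icc (0 : ℝ) 1,
          z.2 = c i + x • a i + y • b i + z.1 • g i} ∧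
      ∑ i, ‖a i‖ ^ 2 / Real.sqrt (1 + (g i 0) ^ 2 + h ^ 2 * (g i 1) ^ 2) ≤
        (∫ p in D, Jw h (V p)) + ε := by
  -- constants of the problem
  have hcont : ContinuousOn (fderiv ℝ V) D :=
    (hV.continuousOn_fderiv_of_isOpen hU le_rfl).mono hDU
  obtain ⟨K0, hK0⟩ := hD.exists_bound_of_continuousOn hcont
  obtain ⟨K, hKdef⟩ : ∃ K : ℝ, K = max K0 0 := ⟨_, rfl⟩
  have hK : ∀ q ∈ D, ‖fderiv ℝ V q‖ ≤ K := fun q hq => by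
    rw [hKdef]; exact (hK0 q hq).trans (le_max_left _ _)
  have hKnn : 0 ≤ K := by rw [hKdef]; exact le_max_right _ _
  have hL2 : 0 < L ^ 2 := by positivity
  obtain ⟨κ, hκ, hκ'⟩ := exists_pos_lower_bound hD
    (f := fun q => 1 + L ^ 2 * LinearMap.det (fderiv ℝ V q).toLinearMap)
    (continuousOn_const.add (continuousOn_const.mul (continuousOn_det_fderiv hU hDU hV)))
    (fun q hq => by
      have h1 := (hdet q hq).1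
      have h2 := mul_lt_mul_of_pos_left h1 hL2
      rw [mul_neg, mul_inv_cancel₀ hL2.ne'] at h2
      linarith)
  obtain ⟨vD, hvD⟩ : ∃ vD : ℝ, vD = (volume D).toReal := ⟨_, rfl⟩
  have hvD0 : 0 ≤ vD := by rw [hvD]; exact ENNReal.toReal_nonneg
  obtain ⟨A0, hA0⟩ : ∃ A0 : ℝ, A0 = ∫ p in D, Jw h (V p) := ⟨_, rfl⟩
  have hA00 : 0 ≤ A0 := by
    rw [hA0]; exact integral_nonneg (fun p => (Jw_pos h (V p)).le)
  obtain ⟨W, hW⟩ : ∃ W : ℝ, W = A0 + vD + 1 := ⟨_, rfl⟩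
  have hW1 : 1 ≤ W := by linarith
  have hW0 : 0 < W := by linarith
  obtain ⟨τ, hτ⟩ : ∃ τ : ℝ, τ = min 1 (ε / (2 * W)) := ⟨_, rfl⟩
  obtain ⟨δ, hδ⟩ : ∃ δ : ℝ, δ = min 1 (ε / (8 * W)) := ⟨_, rfl⟩
  have hτ0 : 0 < τ := by rw [hτ]; exact lt_min one_pos (by positivity)
  have hδ0 : 0 < δ := by rw [hδ]; exact lt_min one_pos (by positivity)
  have hτ1 : τ ≤ 1 := by rw [hτ]; exact min_le_left _ _
  have hδ1 : δ ≤ 1 := by rw [hδ]; exact min_le_left _ _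
  have hτW : τ * W ≤ ε / 2 := by
    have h1 : τ ≤ ε / (2 * W) := by rw [hτ]; exact min_le_right _ _
    calc τ * W ≤ ε / (2 * W) * W := mul_le_mul_of_nonneg_right h1 hW0.le
      _ = ε / 2 := by field_simp
  have hδW : δ * W ≤ ε / 8 := by
    have h1 : δ ≤ ε / (8 * W) := by rw [hδ]; exact min_le_right _ _
    calc δ * W ≤ ε / (8 * W) * W := mul_le_mul_of_nonneg_right h1 hW0.le
      _ = ε / 8 := by field_simp
  obtain ⟨C, hC⟩ : ∃ C : ℝ, C = (1 + L * K) / κ := ⟨_, rfl⟩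
  have hC0 : 0 ≤ C := by rw [hC]; positivity
  obtain ⟨ν, hν⟩ : ∃ ν : ℝ, ν = τ / (16 * (C + 2)) := ⟨_, rfl⟩
  have hν0 : 0 < ν := by rw [hν]; positivity
  have hν1 : ν ≤ 1 := by
    rw [hν, div_le_one (by positivity)]
    nlinarith
  have hνC : 2 * (C + 2) * ν = τ / 8 := by
    rw [hν]; field_simp; ring
  obtain ⟨η, hη⟩ : ∃ η : ℝ, η = τ / 8 := ⟨_, rfl⟩
  have hη0 : 0 < η := by rw [hη]; positivity
  -- scales
  obtain ⟨ρ2, hρ2, hdiff⟩ := uniform_diff hD hU hDU hV (η * ν / (4 * L)) (by positivity)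
  obtain ⟨ρ3, hρ3, hucV⟩ := uniform_cont_V hD hDU hV (δ / (1 + h)) (by positivity)
  obtain ⟨ρ4, hρ4, hthick⟩ := exists_thickening_bound hD δ hδ0
  obtain ⟨ρ5, hρ5⟩ : ∃ ρ5 : ℝ, ρ5 = δ / ((1 + h) * K * (C + 2) + 1) := ⟨_, rfl⟩
  have hρ50 : 0 < ρ5 := by rw [hρ5]; positivity
  obtain ⟨ρ, hρ⟩ : ∃ ρ : ℝ, ρ = min (min (ρ2 / 2) (ρ3 / 2)) (min (ρ4 / 2) ρ5) := ⟨_, rfl⟩
  have hρ0 : 0 < ρ := by
    rw [hρ]; exact lt_min (lt_min (by positivity) (by positivity)) (lt_min (by positivity) hρ50)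
  have hρle2 : 2 * ρ ≤ ρ2 := by
    have : ρ ≤ ρ2 / 2 := by rw [hρ]; exact (min_le_left _ _).trans (min_le_left _ _)
    linarith
  have hρle3 : 2 * ρ ≤ ρ3 := by
    have : ρ ≤ ρ3 / 2 := by rw [hρ]; exact (min_le_left _ _).trans (min_le_right _ _)
    linarith
  have hρle4 : 2 * ρ ≤ ρ4 := by
    have : ρ ≤ ρ4 / 2 := by rw [hρ]; exact (min_le_right _ _).trans (min_le_left _ _)
    linarith
  have hρle5 : ρ ≤ ρ5 := by rw [hρ]; exact (min_le_right _ _).trans (min_le_right _ _)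
  obtain ⟨r, hr⟩ : ∃ r : ℝ, r = ρ * ν := ⟨_, rfl⟩
  have hr0 : 0 < r := by rw [hr]; positivity
  have hrρ : r ≤ ρ := by
    rw [hr]; exact mul_le_of_le_one_right hρ0.le hν1
  -- hypotheses of the core assembly
  have hlin : ∀ q ∈ D, ∀ p ∈ D, ‖p - q‖ ≤ 2 * ρ →
      L * ‖V p - V q - fderiv ℝ V q (p - q)‖ ≤ η * r / 2 := by
    intro q hq p _ hpq
    have h1 := hdiff q hq p (hpq.trans hρle2)
    have h2 : η * ν / (4 * L) * ‖p - q‖ ≤ η * ν / (4 * L) * (2 * ρ) :=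
      mul_le_mul_of_nonneg_left hpq (by positivity)
    calc L * ‖V p - V q - fderiv ℝ V q (p - q)‖ ≤ L * (η * ν / (4 * L) * (2 * ρ)) :=
          mul_le_mul_of_nonneg_left (h1.trans h2) hL.le
      _ = η * r / 2 := by rw [hr]; field_simp; ring
  have hJ1 : (1 + h) * (K * ((1 + L * K) / κ * r + 2 * ρ)) ≤ δ := by
    rw [← hC]
    have h1 : C * r + 2 * ρ ≤ (C + 2) * ρ := by nlinarith
    have h2 : ((1 + h) * K * (C + 2) + 1) * ρ5 = δ := by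
      rw [hρ5]; field_simp
    have h3 : 0 ≤ (1 + h) * K := by positivity
    calc (1 + h) * (K * (C * r + 2 * ρ)) = (1 + h) * K * (C * r + 2 * ρ) := by ring
      _ ≤ (1 + h) * K * ((C + 2) * ρ) := mul_le_mul_of_nonneg_left h1 h3
      _ = ((1 + h) * K * (C + 2)) * ρ := by ring
      _ ≤ ((1 + h) * K * (C + 2) + 1) * ρ5 := by
          apply mul_le_mul (by linarith) hρle5 hρ0.le (by positivity)
      _ = δ := h2
  have hJ2 : ∀ q ∈ D, ∀ p ∈ D, ‖p - q‖ ≤ 2 * ρ → Jw h (V q) ≤ Jw h (V p) + δ := by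
    intro q hq p hp hpq
    have h1 := Jw_le_add h hh (V q) (V p)
    have h2 := hucV q hq p hp (hpq.trans hρle3)
    have h3 : (1 + h) * ‖V q - V p‖ ≤ (1 + h) * (δ / (1 + h)) :=
      mul_le_mul_of_nonneg_left h2 (by positivity)
    have h4 : (1 + h) * (δ / (1 + h)) = δ := by field_simp
    linarith
  obtain ⟨k, c, a, b, g, hab, hcov, hcost⟩ := shear_core hD hU hDU hV L h hh htr K κ hκ hK hKnn
    hL.le (fun q hq => (hdet q hq).2) hκ' ρ r η δ hρ0 hr0 hη0.le hδ0.le hlin hJ1 hJ2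
  refine ⟨k, c, a, b, g, hab, hcov, hcost.trans ?_⟩
  -- the numerical estimate
  rw [← hC, ← hvD, ← hA0]
  obtain ⟨vT, hvT⟩ : ∃ vT : ℝ, vT = (volume (Metric.cthickening (2 * ρ) D)).toReal := ⟨_, rfl⟩
  rw [← hvT]
  have hvTle : vT ≤ vD + δ := by
    rw [hvT, hvD]; exact hthick (2 * ρ) (by positivity) hρle4
  have e1 : (1 + η) ^ 2 * (ρ + 2 * (C + 2) * r) ^ 2 / ρ ^ 2 = (1 + τ / 8) ^ 4 := by
    have h1 : ρ + 2 * (C + 2) * r = ρ * (1 + τ / 8) := by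
      rw [hr, ← hνC]; ring
    rw [h1, hη]
    field_simp
  rw [e1]
  have hδv : δ * (vD + 1) ≤ ε / 8 := by
    refine le_trans (mul_le_mul_of_nonneg_left ?_ hδ0.le) hδW
    linarith
  have hτA : τ * A0 ≤ ε / 2 := by
    refine le_trans (mul_le_mul_of_nonneg_left ?_ hτ0.le) hτW
    linarith
  exact final_numeric A0 vD vT δ τ ε hA00 hvD0 hδ0.le hδ1 hτ0.le hτ1 hvTle hδv hτA


end Crest.Agent.Helper5
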