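import Mathlib
import Crest.Prelude.Def_TreeProducts

/-!
Probabilistic part of S0169 (row 125): path products of independent multipliers along the
countably branching tree.  `helper5`.
-/

set_option autoImplicit false
set_option linter.unusedSectionVars false
set_option warn.classDefReducibility false

open MeasureTheory ProbabilityTheory
open Crest Crest.AnalysisR Crest.AnalysisR.TreeProduct

namespace Crest.Agent.Helper5

section Law

variable {Ω : Type} [MeasurableSpace Ω] {μ : Measure Ω} {ν : Measure ℝ} {Y : Ω → ℝ}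

/-- Transfer of integrals along the law of `Y`. -/
theorem integral_comp_law (hY : Measurable Y) (hmap : Measure.map Y μ = ν) (g : ℝ → ℝ)
    (hg : Measurable g) : ∫ z, g (Y z) ∂μ = ∫ x, g x ∂ν := by
  rw [← hmap, integral_map hY.aemeasurable hg.aestronglyMeasurable]

/-- Transfer of integrability along the law of `Y`. -/
theorem integrable_comp_law (hY : Measurable Y) (hmap : Measure.map Y μ = ν) (g : ℝ → ℝ)
    (hg : Measurable g) (hint : Integrable g ν) : Integrable (fun z => g (Y z)) μ := by
  rw [← hmap] at hint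
  exact (integrable_map_measure hg.aestronglyMeasurable hY.aemeasurable).1 hint

/-- A probability law on `ℝ` which is not a point mass has positive mean deviation from `1`. -/
theorem kappa_pos [IsProbabilityMeasure ν] (hnc : ∀ c : ℝ, ν ≠ Measure.dirac c)
    (hint : Integrable (fun x : ℝ => x) ν) : 0 < ∫ x, |x - 1| ∂ν := by
  have h0 : 0 ≤ ∫ x, |x - 1| ∂ν := integral_nonneg (fun x => abs_nonneg _)
  rcases h0.lt_or_eq with h | h
  · exact h
  · exfalso
    have hi : Integrable (fun x : ℝ => |x - 1|) ν := (hint.sub (integrable_const 1)).abs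
    have hae : (fun x : ℝ => |x - 1|) =ᵐ[ν] 0 :=
      (integral_eq_zero_iff_of_nonneg (fun x => abs_nonneg _) hi).1 h.symm
    have hid : (fun x : ℝ => x) =ᵐ[ν] fun _ => (1 : ℝ) := by
      filter_upwards [hae] with x hx
      have h1 : |x - 1| = 0 := hx
      have h2 := abs_eq_zero.1 h1
      linarith
    apply hnc 1
    calc ν = Measure.map (fun x : ℝ => x) ν := Measure.map_id'.symm
      _ = Measure.map (fun _ : ℝ => (1 : ℝ)) ν := Measure.map_congr hid
      _ = Measure.dirac 1 := by rw [Measure.map_const, measure_univ, one_smul]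

end Law

section Tree

variable {Ω : Type} [mΩ : MeasurableSpace Ω] {μ : Measure Ω} [IsProbabilityMeasure μ]
  {ν : Measure ℝ} [IsProbabilityMeasure ν] {W : List ℕ → Ω → ℝ}

/-- The σ-algebra generated by the multipliers at depth at most `k`. -/
def lowSigma (W : List ℕ → Ω → ℝ) (k : ℕ) : MeasurableSpace Ω :=
  ⨆ u ∈ {u : List ℕ | u.length ≤ k}, MeasurableSpace.comap (W u) inferInstance

/-- The σ-algebra generated by the multipliers at depth more than `k`. -/
def highSigma (W : List ℕ → Ω → ℝ) (k : ℕ) : MeasurableSpace Ω :=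
  ⨆ u ∈ {u : List ℕ | k < u.length}, MeasurableSpace.comap (W u) inferInstance

theorem indep_low_high (hmeas : ∀ v, Measurable (W v)) (hind : iIndepFun W μ) (k : ℕ) :
    Indep (lowSigma W k) (highSigma W k) μ := by
  refine indep_iSup_of_disjoint (fun i => (hmeas i).comap_le) hind ?_
  rw [Set.disjoint_left]
  intro u hu hu'
  change u.length ≤ k at hu
  change k < u.length at hu'
  omega

theorem lowSigma_le (hmeas : ∀ v, Measurable (W v)) (k : ℕ) : lowSigma W k ≤ mΩ :=
  iSup₂_le fun u _ => (hmeas u).comap_le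

theorem highSigma_le (hmeas : ∀ v, Measurable (W v)) (k : ℕ) : highSigma W k ≤ mΩ :=
  iSup₂_le fun u _ => (hmeas u).comap_le

theorem lowSigma_mono {k l : ℕ} (h : k ≤ l) : lowSigma W k ≤ lowSigma W l :=
  biSup_mono fun _ hu => le_trans hu h

theorem measurable_low_of_le {k : ℕ} {u : List ℕ} (hu : u.length ≤ k) :
    Measurable[lowSigma W k] (W u) := by
  have h : MeasurableSpace.comap (W u) inferInstance ≤ lowSigma W k :=
    le_biSup (fun u => MeasurableSpace.comap (W u) inferInstance)
      (show u ∈ {u : List ℕ | u.length ≤ k} from hu)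
  exact (comap_measurable (W u)).mono h le_rfl

theorem measurable_high_of_lt {k : ℕ} {u : List ℕ} (hu : k < u.length) :
    Measurable[highSigma W k] (W u) := by
  have h : MeasurableSpace.comap (W u) inferInstance ≤ highSigma W k :=
    le_biSup (fun u => MeasurableSpace.comap (W u) inferInstance)
      (show u ∈ {u : List ℕ | k < u.length} from hu)
  exact (comap_measurable (W u)).mono h le_rfl

theorem measurable_pathProduct_low (v : List ℕ) :
    Measurable[lowSigma W v.length] (pathProduct W v) := by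
  induction v with
  | nil => exact measurable_const
  | cons a v ih =>
    have h1 : Measurable[lowSigma W (a :: v).length] (pathProduct W v) :=
      ih.mono (lowSigma_mono (by simp)) le_rfl
    have h2 : Measurable[lowSigma W (a :: v).length] (W (a :: v)) :=
      measurable_low_of_le le_rfl
    exact h1.mul h2

theorem indepFun_of_low_high (hmeas : ∀ v, Measurable (W v)) (hind : iIndepFun W μ) {k : ℕ}
    {f g : Ω → ℝ} (hf : Measurable[lowSigma W k] f) (hg : Measurable[highSigma W k] g) :
    IndepFun f g μ :=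
  indep_of_indep_of_le_left
    (indep_of_indep_of_le_right (indep_low_high hmeas hind k) hg.comap_le) hf.comap_le

/-- Integrability, mean one and almost sure nonnegativity of the path products. -/
theorem pathProduct_facts (hW : IsRealization ν μ W) (hpos : ν (Set.Ioi 0) = 1)
    (hint : Integrable (fun x : ℝ => x) ν) (hmean : ∫ x, x ∂ν = 1) (v : List ℕ) :
    Integrable (pathProduct W v) μ ∧ ∫ z, pathProduct W v z ∂μ = 1 ∧
      ∀ᵐ z ∂μ, 0 ≤ pathProduct W v z := by
  obtain ⟨hmeas, hind, hlaw⟩ := hW
  induction v with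
  | nil =>
    refine ⟨integrable_const (1 : ℝ), ?_, Filter.Eventually.of_forall fun z => zero_le_one⟩
    change ∫ _z, (1 : ℝ) ∂μ = 1
    simp
  | cons a v ih =>
    obtain ⟨ih1, ih2, ih3⟩ := ih
    have hc : a :: v ≠ [] := List.cons_ne_nil a v
    have hindep : IndepFun (pathProduct W v) (W (a :: v)) μ :=
      indepFun_of_low_high hmeas hind (measurable_pathProduct_low v)
        (measurable_high_of_lt (by simp))
    have hWint : Integrable (W (a :: v)) μ :=
      integrable_comp_law (hmeas _) (hlaw _ hc) (fun x => x) measurable_id hint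
    have hWmean : ∫ z, W (a :: v) z ∂μ = 1 := by
      rw [integral_comp_law (hmeas _) (hlaw _ hc) (fun x => x) measurable_id, hmean]
    have hWpos : ∀ᵐ z ∂μ, 0 < W (a :: v) z := by
      have h1 : ∀ᵐ x ∂ν, x ∈ Set.Ioi (0 : ℝ) := by
        rw [ae_iff]
        exact (prob_compl_eq_zero_iff measurableSet_Ioi).2 hpos
      rw [← hlaw _ hc] at h1
      exact (ae_map_iff (hmeas _).aemeasurable measurableSet_Ioi).1 h1
    refine ⟨?_, ?_, ?_⟩
    · exact hindep.integrable_mul ih1 hWint
    · change ∫ z, pathProduct W v z * W (a :: v) z ∂μ = 1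
      rw [hindep.integral_fun_mul_eq_mul_integral ih1.aestronglyMeasurable
        hWint.aestronglyMeasurable, ih2, hWmean, mul_one]
    · filter_upwards [ih3, hWpos] with z h1 h2
      exact mul_nonneg h1 h2.le

/-- Multiplying by a path product does not change the `L¹` norm of a function measurable with
respect to deeper multipliers. -/
theorem integral_abs_pathProduct_mul (hW : IsRealization ν μ W) (hpos : ν (Set.Ioi 0) = 1)
    (hint : Integrable (fun x : ℝ => x) ν) (hmean : ∫ x, x ∂ν = 1) (v : List ℕ) {g : Ω → ℝ}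
    (hg : Measurable[highSigma W v.length] g) (hgi : Integrable g μ) :
    Integrable (fun z => pathProduct W v z * g z) μ ∧
      ∫ z, |pathProduct W v z * g z| ∂μ = ∫ z, |g z| ∂μ := by
  obtain ⟨h1, h2, h3⟩ := pathProduct_facts hW hpos hint hmean v
  obtain ⟨hmeas, hind, hlaw⟩ := hW
  have hindep : IndepFun (pathProduct W v) g μ :=
    indepFun_of_low_high hmeas hind (measurable_pathProduct_low v) hg
  refine ⟨hindep.integrable_mul h1 hgi, ?_⟩
  have hindep' : IndepFun (fun z => |pathProduct W v z|) (fun z => |g z|) μ :=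
    hindep.comp (φ := fun x : ℝ => |x|) (ψ := fun x : ℝ => |x|) continuous_abs.measurable
      continuous_abs.measurable
  have habs : ∫ z, |pathProduct W v z| ∂μ = 1 := by
    rw [← h2]
    refine integral_congr_ae ?_
    filter_upwards [h3] with z hz
    exact abs_of_nonneg hz
  calc ∫ z, |pathProduct W v z * g z| ∂μ = ∫ z, |pathProduct W v z| * |g z| ∂μ := by
        simp only [abs_mul]
    _ = (∫ z, |pathProduct W v z| ∂μ) * ∫ z, |g z| ∂μ :=
        hindep'.integral_fun_mul_eq_mul_integral h1.abs.aestronglyMeasurable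
          hgi.abs.aestronglyMeasurable
    _ = ∫ z, |g z| ∂μ := by rw [habs, one_mul]

end Tree

section Sums

variable {Ω : Type} [mΩ : MeasurableSpace Ω] {μ : Measure Ω} [IsProbabilityMeasure μ]

/-- `L¹` bound for weighted sums of centred, pairwise independent, square integrable variables
with common second moment `s2`. -/
theorem integral_abs_sum_le {ι : Type*} (Y : ι → Ω → ℝ) (s2 : ℝ) (hs2 : 0 ≤ s2)
    (hYm : ∀ n, Measurable (Y n)) (hY2 : ∀ n, Integrable (fun z => Y n z ^ 2) μ)
    (hY0 : ∀ n, ∫ z, Y n z ∂μ = 0) (hYs : ∀ n, ∫ z, Y n z ^ 2 ∂μ = s2)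
    (hYi : ∀ n m, n ≠ m → IndepFun (Y n) (Y m) μ)
    (A : Finset ι) (ε : ι → ℝ) (hε : ∀ n, |ε n| ≤ 1) :
    ∫ z, |∑ n ∈ A, ε n * Y n z| ∂μ ≤ Real.sqrt s2 * Real.sqrt A.card := by
  have hYL2 : ∀ n, MemLp (Y n) 2 μ := fun n =>
    (memLp_two_iff_integrable_sq (hYm n).aestronglyMeasurable).2 (hY2 n)
  obtain ⟨X, hX⟩ : ∃ X : ι → Ω → ℝ, X = fun n z => ε n * Y n z := ⟨_, rfl⟩
  have hXL2 : ∀ n, MemLp (X n) 2 μ := fun n => by
    rw [hX]; exact (hYL2 n).const_mul (ε n)
  have hG : MemLp (∑ n ∈ A, X n) 2 μ := memLp_finsetSum' A (fun n _ => hXL2 n)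
  have hGfun : (∑ n ∈ A, X n) = fun z => ∑ n ∈ A, ε n * Y n z := by
    ext z; simp [hX, Finset.sum_apply]
  have hvar : Var[∑ n ∈ A, X n; μ] = ∑ n ∈ A, ε n ^ 2 * s2 := by
    rw [IndepFun.variance_sum (fun n _ => hXL2 n)]
    · refine Finset.sum_congr rfl fun n _ => ?_
      rw [hX]
      rw [variance_const_mul, variance_of_integral_eq_zero (hYm n).aemeasurable (hY0 n), hYs n]
    · intro n _ m _ hnm
      rw [hX]
      exact (hYi n m hnm).comp (φ := fun x : ℝ => ε n * x) (ψ := fun x : ℝ => ε m * x)
        (measurable_id.const_mul _) (measurable_id.const_mul _)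
  have hmeanG : μ[∑ n ∈ A, X n] = 0 := by
    rw [hGfun, integral_finsetSum A
      (fun n _ => ((hYL2 n).integrable one_le_two).const_mul (ε n))]
    refine Finset.sum_eq_zero fun n _ => ?_
    rw [integral_const_mul, hY0, mul_zero]
  have hGsq : μ[(∑ n ∈ A, X n) ^ 2] = ∑ n ∈ A, ε n ^ 2 * s2 := by
    have h := variance_eq_sub hG
    rw [hmeanG, hvar] at h
    linarith
  have habs : MemLp |∑ n ∈ A, X n| 2 μ := hG.abs
  have h1 := variance_nonneg |∑ n ∈ A, X n| μ
  rw [variance_eq_sub habs] at h1
  have h2 : μ[(|∑ n ∈ A, X n|) ^ 2] = μ[(∑ n ∈ A, X n) ^ 2] := by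
    congr 1
    ext z
    simp [sq_abs]
  have h3 : (∫ z, |∑ n ∈ A, ε n * Y n z| ∂μ) = μ[(|∑ n ∈ A, X n|)] := by
    rw [hGfun]
    rfl
  have h4 : ∑ n ∈ A, ε n ^ 2 * s2 ≤ s2 * A.card := by
    calc ∑ n ∈ A, ε n ^ 2 * s2 ≤ ∑ _n ∈ A, s2 := by
          refine Finset.sum_le_sum fun n _ => ?_
          have h5 : ε n ^ 2 ≤ 1 := by
            have := hε n
            rw [abs_le] at this
            nlinarith [this.1, this.2]
          nlinarith
      _ = s2 * A.card := by rw [Finset.sum_const, nsmul_eq_mul, mul_comm]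
  have h5 : (∫ z, |∑ n ∈ A, ε n * Y n z| ∂μ) ^ 2 ≤ s2 * A.card := by
    rw [h3]
    rw [h2, hGsq] at h1
    linarith
  rw [← Real.sqrt_mul hs2]
  exact (le_abs_self _).trans (Real.abs_le_sqrt h5)

/-- The norm of the `L¹` class of an integrable real function. -/
theorem norm_toL1_abs (f : Ω → ℝ) (hf : Integrable f μ) : ‖hf.toL1 f‖ = ∫ z, |f z| ∂μ := by
  rw [L1.norm_eq_integral_norm]
  refine integral_congr_ae ?_
  filter_upwards [hf.coeFn_toL1] with z hz
  rw [hz, Real.norm_eq_abs]

/-- `toL1` commutes with finite sums. -/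
theorem toL1_finset_sum {ι : Type*} (A : Finset ι) (f : ι → Ω → ℝ)
    (hf : ∀ n, Integrable (f n) μ) :
    ∑ n ∈ A, (hf n).toL1 (f n) =
      (integrable_finsetSum' A fun n _ => hf n).toL1 (∑ n ∈ A, f n) := by
  classical
  induction A using Finset.induction_on with
  | empty => simp
  | insert a s ha ih =>
    rw [Finset.sum_insert ha, ih, ← Integrable.toL1_add]
    refine (Integrable.toL1_eq_toL1_iff _ _ _ _).2 (Filter.Eventually.of_forall fun z => ?_)
    rw [Finset.sum_insert ha]

end Sums

section Classes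

variable {Ω : Type} [mΩ : MeasurableSpace Ω] {μ : Measure Ω} [IsProbabilityMeasure μ]
  {ν : Measure ℝ} [IsProbabilityMeasure ν] {W : List ℕ → Ω → ℝ}

/-- The `L¹` class of the path product at `v`. -/
noncomputable def xL1 (hX : ∀ v, Integrable (pathProduct W v) μ) (v : List ℕ) : Lp ℝ 1 μ :=
  (hX v).toL1 (pathProduct W v)

theorem xL1_mem (hX : ∀ v, Integrable (pathProduct W v) μ) (v : List ℕ) :
    xL1 hX v ∈ productSpan μ W :=
  Submodule.le_topologicalClosure _ (Submodule.subset_span ⟨v, (hX v).coeFn_toL1⟩)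

theorem norm_xL1 (hW : IsRealization ν μ W) (hpos : ν (Set.Ioi 0) = 1)
    (hint : Integrable (fun x : ℝ => x) ν) (hmean : ∫ x, x ∂ν = 1)
    (hX : ∀ v, Integrable (pathProduct W v) μ) (v : List ℕ) : ‖xL1 hX v‖ = 1 := by
  obtain ⟨-, h2, h3⟩ := pathProduct_facts hW hpos hint hmean v
  rw [xL1, norm_toL1_abs, ← h2]
  refine integral_congr_ae ?_
  filter_upwards [h3] with z hz
  exact abs_of_nonneg hz

/-- Weighted sums of the increments towards the children of `v`, as the class of an explicit
function. -/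
theorem sum_increments_eq (hX : ∀ v, Integrable (pathProduct W v) μ) (v : List ℕ)
    (A : Finset ℕ) (ε : ℕ → ℝ)
    (hF : Integrable (fun z => pathProduct W v z * ∑ n ∈ A, ε n * (W (n :: v) z - 1)) μ) :
    ∑ n ∈ A, ε n • (xL1 hX (n :: v) - xL1 hX v) =
      hF.toL1 (fun z => pathProduct W v z * ∑ n ∈ A, ε n * (W (n :: v) z - 1)) := by
  have hf : ∀ n, Integrable (ε n • (pathProduct W (n :: v) - pathProduct W v)) μ :=
    fun n => ((hX (n :: v)).sub (hX v)).smul (ε n)
  have h1 : ∀ n, ε n • (xL1 hX (n :: v) - xL1 hX v) =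
      (hf n).toL1 (ε n • (pathProduct W (n :: v) - pathProduct W v)) := fun n => rfl
  simp only [h1]
  rw [toL1_finset_sum A _ hf]
  refine (Integrable.toL1_eq_toL1_iff _ _ _ _).2 (Filter.Eventually.of_forall fun z => ?_)
  simp only [Finset.sum_apply, Pi.smul_apply, Pi.sub_apply, smul_eq_mul, Finset.mul_sum]
  refine Finset.sum_congr rfl fun n _ => ?_
  change ε n * (pathProduct W v z * W (n :: v) z - pathProduct W v z) = _
  ring

/-- The increments towards the children all have norm `κ = ∫ |x - 1| dν`. -/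
theorem norm_xL1_sub (hW : IsRealization ν μ W) (hpos : ν (Set.Ioi 0) = 1)
    (hint : Integrable (fun x : ℝ => x) ν) (hmean : ∫ x, x ∂ν = 1)
    (hX : ∀ v, Integrable (pathProduct W v) μ) (n : ℕ) (v : List ℕ) :
    ‖xL1 hX (n :: v) - xL1 hX v‖ = ∫ x, |x - 1| ∂ν := by
  have hmeas := hW.1
  have hlaw := hW.2.2
  have hc : n :: v ≠ [] := List.cons_ne_nil n v
  have hg : Measurable[highSigma W v.length] (fun z => W (n :: v) z - 1) :=
    (measurable_high_of_lt (by simp)).sub measurable_const
  have hgi : Integrable (fun z => W (n :: v) z - 1) μ :=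
    (integrable_comp_law (hmeas _) (hlaw _ hc) (fun x => x) measurable_id hint).sub
      (integrable_const 1)
  obtain ⟨hi, he⟩ := integral_abs_pathProduct_mul hW hpos hint hmean v hg hgi
  have h1 : xL1 hX (n :: v) - xL1 hX v =
      hi.toL1 (fun z => pathProduct W v z * (W (n :: v) z - 1)) := by
    change ((hX (n :: v)).sub (hX v)).toL1 (pathProduct W (n :: v) - pathProduct W v) = _
    refine (Integrable.toL1_eq_toL1_iff _ _ _ _).2 (Filter.Eventually.of_forall fun z => ?_)
    change pathProduct W v z * W (n :: v) z - pathProduct W v z = _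
    ring
  rw [h1, norm_toL1_abs, he]
  exact integral_comp_law (hmeas _) (hlaw _ hc) (fun x => |x - 1|)
    ((measurable_id.sub measurable_const).abs)

/-- The `l²`-type estimate for the increments towards the children of `v`. -/
theorem norm_sum_increments_le (hW : IsRealization ν μ W) (hpos : ν (Set.Ioi 0) = 1)
    (hint : Integrable (fun x : ℝ => x) ν) (hmean : ∫ x, x ∂ν = 1)
    (hm2 : Integrable (fun x : ℝ => x ^ 2) ν)
    (hX : ∀ v, Integrable (pathProduct W v) μ) (v : List ℕ) (A : Finset ℕ) (ε : ℕ → ℝ)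
    (hε : ∀ n, |ε n| ≤ 1) :
    ‖∑ n ∈ A, ε n • (xL1 hX (n :: v) - xL1 hX v)‖ ≤
      Real.sqrt (∫ x, (x - 1) ^ 2 ∂ν) * Real.sqrt A.card := by
  have hmeas := hW.1
  have hind := hW.2.1
  have hlaw := hW.2.2
  have hc : ∀ n, n :: v ≠ [] := fun n => List.cons_ne_nil n v
  have hsqν : Integrable (fun x : ℝ => (x - 1) ^ 2) ν := by
    have : (fun x : ℝ => (x - 1) ^ 2) = fun x => x ^ 2 - 2 * x + 1 := by
      ext x; ring
    rw [this]
    exact (hm2.sub (hint.const_mul 2)).add (integrable_const 1)
  have hYm : ∀ n, Measurable (fun z => W (n :: v) z - 1) := fun n =>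
    (hmeas _).sub measurable_const
  have hYi1 : ∀ n, Integrable (fun z => W (n :: v) z - 1) μ := fun n =>
    (integrable_comp_law (hmeas _) (hlaw _ (hc n)) (fun x => x) measurable_id hint).sub
      (integrable_const 1)
  have hg : Measurable[highSigma W v.length] (fun z => ∑ n ∈ A, ε n * (W (n :: v) z - 1)) :=
    Finset.measurable_sum A fun n _ =>
      measurable_const.mul ((measurable_high_of_lt (by simp)).sub measurable_const)
  have hgi : Integrable (fun z => ∑ n ∈ A, ε n * (W (n :: v) z - 1)) μ :=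
    integrable_finsetSum A fun n _ => (hYi1 n).const_mul (ε n)
  obtain ⟨hi, he⟩ := integral_abs_pathProduct_mul hW hpos hint hmean v hg hgi
  rw [sum_increments_eq hX v A ε hi, norm_toL1_abs, he]
  refine integral_abs_sum_le (fun n z => W (n :: v) z - 1) _
    (integral_nonneg fun x => sq_nonneg _) hYm ?_ ?_ ?_ ?_ A ε hε
  · intro n
    exact integrable_comp_law (hmeas _) (hlaw _ (hc n)) (fun x => (x - 1) ^ 2)
      ((measurable_id.sub measurable_const).pow_const 2) hsqν
  · intro n
    rw [integral_comp_law (hmeas _) (hlaw _ (hc n)) (fun x => x - 1)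
      (measurable_id.sub measurable_const), integral_sub hint (integrable_const 1), hmean]
    simp
  · intro n
    exact integral_comp_law (hmeas _) (hlaw _ (hc n)) (fun x => (x - 1) ^ 2)
      ((measurable_id.sub measurable_const).pow_const 2)
  · intro n m hnm
    have hne : n :: v ≠ m :: v := by
      intro h
      exact hnm (List.cons.inj h).1
    exact (hind.indepFun hne).comp (φ := fun x : ℝ => x - 1) (ψ := fun x : ℝ => x - 1)
      (measurable_id.sub measurable_const) (measurable_id.sub measurable_const)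

end Classes

end Crest.Agent.Helper5
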